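import Mathlib

open MeasureTheory

namespace Vale.Agent.P075

/-- The dyadic interval `[2^k n, 2^k (n+1))`. -/
def dyad (k : ℤ) (n : ℕ) : Set ℝ := Set.Ico ((2 : ℝ) ^ k * n) ((2 : ℝ) ^ k * (n + 1))

/-- Its left half. -/
def dyadLeft (k : ℤ) (n : ℕ) : Set ℝ := Set.Ico ((2 : ℝ) ^ k * n) ((2 : ℝ) ^ k * (n + 1 / 2))

/-- Its right half. -/
def dyadRight (k : ℤ) (n : ℕ) : Set ℝ :=
  Set.Ico ((2 : ℝ) ^ k * (n + 1 / 2)) ((2 : ℝ) ^ k * (n + 1))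

/-- The Haar function `h_I = 1_{left half} - 1_{right half}`. -/
noncomputable def haar (k : ℤ) (n : ℕ) (x : ℝ) : ℝ :=
  (dyadLeft k n).indicator (fun _ => (1 : ℝ)) x - (dyadRight k n).indicator (fun _ => (1 : ℝ)) x

/-- Index triples whose bitwise XOR is zero. -/
def Triple : Type := {I : ℕ × ℕ × ℕ // I.1 ^^^ I.2.1 ^^^ I.2.2 = 0}

/-- The form `L_I` at scale `k` for the intervals with indices `I`. -/
noncomputable def formL (k : ℤ) (I : ℕ × ℕ × ℕ) (F0 F1 F2 : ℝ × ℝ → ℝ) : ℝ :=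
  (2 : ℝ) ^ (-k) * ∫ x in dyad k I.1 ×ˢ dyad k I.2.1 ×ˢ dyad k I.2.2,
    F0 (x.1, x.2.1) * F1 (x.2.1, x.2.2) * F2 (x.2.2, x.1) *
      (haar k I.1 x.1 * haar k I.2.1 x.2.1 * haar k I.2.2 x.2.2)

/-- The dyadic triangular Hilbert form. -/
noncomputable def formLam (S : Finset ℤ) (ε : ℤ → ℝ) (F0 F1 F2 : ℝ × ℝ → ℝ) : ℝ :=
  ∑ k ∈ S, ε k * ∑' I : Triple, formL k I.1 F0 F1 F2

/-- The quadrant `[0,∞)^2`. -/
def quad : Set (ℝ × ℝ) := Set.Ici 0 ×ˢ Set.Ici 0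

/-- Measurable, bounded and compactly supported on the quadrant. -/
def Admissible (F : ℝ × ℝ → ℝ) : Prop :=
  AEStronglyMeasurable F (volume.restrict quad) ∧ (∃ M : ℝ, ∀ p ∈ quad, |F p| ≤ M) ∧
    ∃ K : Set (ℝ × ℝ), IsCompact K ∧ ∀ p ∈ quad, p ∉ K → F p = 0

/-- The `L^3` norm on the quadrant. -/
noncomputable def normL3 (F : ℝ × ℝ → ℝ) : ℝ := (eLpNorm F 3 (volume.restrict quad)).toReal

end Vale.Agent.P075
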