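import Vale.Agent.P075.Mat2

open Matrix Filter

namespace Vale.Agent.P075

variable {n : Type*} [Fintype n] [DecidableEq n]

def mk (p q : n → ℝ) (F : Matrix n n ℝ) : Matrix n n ℝ := Matrix.of fun i j => p i * F i j * q j

omit [DecidableEq n] in
lemma S_split {u0 u1 w0 w1 : n → ℝ} (v : n → ℝ) (hu : ∀ i, u0 i * u1 i = 0)
    (hw : ∀ i, w0 i * w1 i = 0) (F F' : Matrix n n ℝ) :
    S (mk (u0 + u1) v F) (mk v (w0 + w1) F') =
      S (mk u0 v F) (mk v w0 F') + S (mk u1 v F) (mk v w1 F') := by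
  ext i j
  simp only [S, mk, Matrix.add_apply, Matrix.mul_apply, transpose_apply, of_apply, Pi.add_apply,
    ← Finset.sum_add_distrib]
  refine Finset.sum_congr rfl fun l _ => ?_
  linear_combination (2 * F l i * v i * F l j * v j) * hu l + (2 * v i * F' i l * v j * F' j l) * hw l

lemma one_step {u0 u1 v0 v1 w0 w1 : n → ℝ} (hu : ∀ i, u0 i * u1 i = 0)
    (hw : ∀ i, w0 i * w1 i = 0) (hv : ∀ i, v0 i * v1 i = 0) (hv0 : ∀ i, v0 i * v0 i = v0 i)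
    (hv1 : ∀ i, v1 i * v1 i = v1 i) (F F' : Matrix n n ℝ) {c : ℝ} (hc : 0 ≤ c) :
    4 * ell (c • S (mk (u0 + u1) (v0 + v1) F) (mk (v0 + v1) (w0 + w1) F')) +
      2 * e2 c (mk (u0 + u1) (v0 + v1) F) (mk (v0 + v1) (w0 + w1) F') (v0 - v1) ≤
      ell ((4 * c) • S (mk u0 v0 F) (mk v0 w0 F')) + ell ((4 * c) • S (mk u1 v0 F) (mk v0 w1 F')) +
      ell ((4 * c) • S (mk u0 v1 F) (mk v1 w1 F')) + ell ((4 * c) • S (mk u1 v1 F) (mk v1 w0 F')) := by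
  have hS : ∀ X Y : Matrix n n ℝ, (fromRows X Yᵀ)ᵀ * fromRows X Yᵀ = S X Y := by
    intro X Y
    rw [transpose_fromRows, fromCols_mul_fromRows, transpose_transpose, S]
  have hQ : ∀ v : n → ℝ, (∀ i, (v0 i + v1 i) * v i = v i) →
      fromRows (mk (u0 + u1) (v0 + v1) F) (mk (v0 + v1) (w0 + w1) F')ᵀ * diagonal v =
        fromRows (mk (u0 + u1) v F) (mk v (w0 + w1) F')ᵀ := by
    intro v h
    rw [fromRows_mul]
    congr 1
    · ext i j
      simp only [mk, mul_diagonal, of_apply, Pi.add_apply]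
      rw [mul_assoc, h]
    · ext i j
      simp only [mk, mul_diagonal, of_apply, Pi.add_apply, transpose_apply]
      linear_combination (F' j i * (w0 i + w1 i)) * h j
  have h := col_split hc (fromRows (mk (u0 + u1) (v0 + v1) F) (mk (v0 + v1) (w0 + w1) F')ᵀ)
    (diagonal v0) (diagonal v1)
    (by rw [diagonal_transpose, diagonal_mul_diagonal]; congr 1; ext i; exact hv0 i)
    (by rw [diagonal_transpose, diagonal_mul_diagonal]; congr 1; ext i; exact hv1 i)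
    (by
      rw [diagonal_add]
      exact hQ (v0 + v1) (fun i => by
        simp only [Pi.add_apply]; linear_combination hv0 i + hv1 i + 2 * hv i))
  rw [hQ v0 (fun i => by linear_combination hv0 i + hv i),
    hQ v1 (fun i => by linear_combination hv1 i + hv i), hS, hS, hS, diagonal_sub,
    S_split v0 hu hw, add_comm w0 w1, S_split v1 hu (fun i => by rw [mul_comm]; exact hw i),
    add_comm w1 w0] at h
  have a0 := ell_add_le (S_psd (mk u0 v0 F) (mk v0 w0 F')) (S_psd (mk u1 v0 F) (mk v0 w1 F'))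
    (c := 2 * c) (by positivity)
  have a1 := ell_add_le (S_psd (mk u0 v1 F) (mk v1 w1 F')) (S_psd (mk u1 v1 F) (mk v1 w0 F'))
    (c := 2 * c) (by positivity)
  rw [show 2 * (2 * c) = 4 * c by ring] at a0 a1
  have e : e2 c (mk (u0 + u1) (v0 + v1) F) (mk (v0 + v1) (w0 + w1) F') (v0 - v1) =
    en (c • S (mk (u0 + u1) (v0 + v1) F) (mk (v0 + v1) (w0 + w1) F'))
      (c • S (mk (u0 + u1) (v0 + v1) F) (mk (v0 + v1) (w0 + w1) F'))
      (diagonal fun i => v0 i - v1 i) := rfl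
  rw [e]
  linarith

structure Mask (μ : ℕ → ℕ → n → ℝ) : Prop where
  split : ∀ d k, μ d k = μ (d + 1) (2 * k) + μ (d + 1) (2 * k + 1)
  idem : ∀ d k i, μ d k i * μ d k i = μ d k i

def hh (μ : ℕ → ℕ → n → ℝ) (d k : ℕ) : n → ℝ := μ (d + 1) (2 * k) - μ (d + 1) (2 * k + 1)

omit [Fintype n] [DecidableEq n] in
lemma Mask.orth {μ : ℕ → ℕ → n → ℝ} (h : Mask μ) (d k : ℕ) (i : n) :
    μ (d + 1) (2 * k) i * μ (d + 1) (2 * k + 1) i = 0 := by
  have h1 := h.idem d k i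
  rw [h.split d k] at h1
  simp only [Pi.add_apply] at h1
  have h2 := h.idem (d + 1) (2 * k) i
  have h3 := h.idem (d + 1) (2 * k + 1) i
  linear_combination (h1 - h2 - h3) / 2

omit [Fintype n] [DecidableEq n] in
lemma Mask.mul_hh {μ : ℕ → ℕ → n → ℝ} (h : Mask μ) (d k : ℕ) (i : n) :
    μ d k i * hh μ d k i = hh μ d k i := by
  rw [h.split d k]
  simp only [hh, Pi.add_apply, Pi.sub_apply]
  linear_combination h.idem (d + 1) (2 * k) i - h.idem (d + 1) (2 * k + 1) i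

omit [Fintype n] [DecidableEq n] in
lemma Mask.abs_hh {μ : ℕ → ℕ → n → ℝ} (h : Mask μ) (d k : ℕ) (i : n) :
    |hh μ d k i| ≤ 1 := by
  have h1 := h.idem (d + 1) (2 * k) i
  have h2 := h.idem (d + 1) (2 * k + 1) i
  simp only [hh, Pi.sub_apply]
  rw [abs_le]
  constructor <;> nlinarith

lemma xor00 (a b : ℕ) : (2 * a) ^^^ (2 * b) = 2 * (a ^^^ b) := by
  have := Nat.xor_bit false a false b
  simpa [Nat.bit] using this
lemma xor10 (a b : ℕ) : (2 * a + 1) ^^^ (2 * b) = 2 * (a ^^^ b) + 1 := by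
  have := Nat.xor_bit true a false b
  simpa [Nat.bit] using this
lemma xor01 (a b : ℕ) : (2 * a) ^^^ (2 * b + 1) = 2 * (a ^^^ b) + 1 := by
  have := Nat.xor_bit false a true b
  simpa [Nat.bit] using this
lemma xor11 (a b : ℕ) : (2 * a + 1) ^^^ (2 * b + 1) = 2 * (a ^^^ b) := by
  have := Nat.xor_bit true a true b
  simpa [Nat.bit] using this

lemma sum_range_two_mul (f : ℕ → ℝ) (M : ℕ) :
    ∑ a ∈ Finset.range (2 * M), f a = ∑ a ∈ Finset.range M, (f (2 * a) + f (2 * a + 1)) := by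
  induction M with
  | zero => simp
  | succ M ih =>
    rw [show 2 * (M + 1) = 2 * M + 1 + 1 by ring, Finset.sum_range_succ, Finset.sum_range_succ, ih,
      Finset.sum_range_succ, add_assoc]

section
variable (μ0 μ1 μ2 : ℕ → ℕ → n → ℝ) (F0 F1 F2 : Matrix n n ℝ)

noncomputable def bell (c : ℝ) (d a b : ℕ) : ℝ :=
  ell (c • S (mk (μ0 d a) (μ1 d b) F0) (mk (μ1 d b) (μ2 d (a ^^^ b)) F1)) +
  ell (c • S (mk (μ1 d b) (μ2 d (a ^^^ b)) F1) (mk (μ2 d (a ^^^ b)) (μ0 d a) F2)) +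
  ell (c • S (mk (μ2 d (a ^^^ b)) (μ0 d a) F2) (mk (μ0 d a) (μ1 d b) F0))

noncomputable def ee (c : ℝ) (d a b : ℕ) : ℝ :=
  e2 c (mk (μ0 d a) (μ1 d b) F0) (mk (μ1 d b) (μ2 d (a ^^^ b)) F1) (hh μ1 d b) +
  e2 c (mk (μ1 d b) (μ2 d (a ^^^ b)) F1) (mk (μ2 d (a ^^^ b)) (μ0 d a) F2) (hh μ2 d (a ^^^ b)) +
  e2 c (mk (μ2 d (a ^^^ b)) (μ0 d a) F2) (mk (μ0 d a) (μ1 d b) F0) (hh μ0 d a)

def TT (d a b : ℕ) : ℝ :=
  ∑ i, ∑ j, ∑ l, F0 i j * F1 j l * F2 l i * (hh μ0 d a i * hh μ1 d b j * hh μ2 d (a ^^^ b) l)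

variable {μ0 μ1 μ2}

lemma node_step (h0 : Mask μ0) (h1 : Mask μ1) (h2 : Mask μ2) {c : ℝ} (hc : 0 ≤ c) (d a b : ℕ) :
    4 * bell μ0 μ1 μ2 F0 F1 F2 c d a b + 2 * ee μ0 μ1 μ2 F0 F1 F2 c d a b ≤
      (bell μ0 μ1 μ2 F0 F1 F2 (4 * c) (d + 1) (2 * a) (2 * b) +
      bell μ0 μ1 μ2 F0 F1 F2 (4 * c) (d + 1) (2 * a) (2 * b + 1)) +
      (bell μ0 μ1 μ2 F0 F1 F2 (4 * c) (d + 1) (2 * a + 1) (2 * b) +
      bell μ0 μ1 μ2 F0 F1 F2 (4 * c) (d + 1) (2 * a + 1) (2 * b + 1)) := by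
  have a1 := one_step (h0.orth d a) (h2.orth d (a ^^^ b)) (h1.orth d b) (h1.idem _ _)
    (h1.idem _ _) F0 F1 hc
  have a2 := one_step (h1.orth d b) (h0.orth d a) (h2.orth d (a ^^^ b)) (h2.idem _ _)
    (h2.idem _ _) F1 F2 hc
  have a3 := one_step (h2.orth d (a ^^^ b)) (h1.orth d b) (h0.orth d a) (h0.idem _ _)
    (h0.idem _ _) F2 F0 hc
  rw [← h0.split, ← h1.split, ← h2.split] at a1 a2 a3
  simp only [bell, ee, hh, xor00, xor01, xor10, xor11]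
  linarith

lemma level_step (h0 : Mask μ0) (h1 : Mask μ1) (h2 : Mask μ2) {c : ℝ} (hc : 0 ≤ c) (d : ℕ) :
    4 * (∑ a ∈ Finset.range (2 ^ d), ∑ b ∈ Finset.range (2 ^ d),
      bell μ0 μ1 μ2 F0 F1 F2 c d a b) +
    2 * (∑ a ∈ Finset.range (2 ^ d), ∑ b ∈ Finset.range (2 ^ d),
      ee μ0 μ1 μ2 F0 F1 F2 c d a b) ≤
    ∑ a ∈ Finset.range (2 ^ (d + 1)), ∑ b ∈ Finset.range (2 ^ (d + 1)),
      bell μ0 μ1 μ2 F0 F1 F2 (4 * c) (d + 1) a b := by
  rw [pow_succ', sum_range_two_mul]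
  simp only [sum_range_two_mul, Finset.mul_sum, ← Finset.sum_add_distrib]
  exact Finset.sum_le_sum fun a _ => Finset.sum_le_sum fun b _ =>
    node_step F0 F1 F2 h0 h1 h2 hc d a b

lemma telescope (h0 : Mask μ0) (h1 : Mask μ1) (h2 : Mask μ2) {c : ℝ} (hc : 0 ≤ c) (D : ℕ) :
    ∑ d ∈ Finset.range D, (∑ a ∈ Finset.range (2 ^ d), ∑ b ∈ Finset.range (2 ^ d),
      ee μ0 μ1 μ2 F0 F1 F2 (c * 4 ^ d) d a b) / 4 ^ d ≤
    2 * ((∑ a ∈ Finset.range (2 ^ D), ∑ b ∈ Finset.range (2 ^ D),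
      bell μ0 μ1 μ2 F0 F1 F2 (c * 4 ^ D) D a b) / 4 ^ D) := by
  induction D with
  | zero =>
    rw [Finset.sum_range_zero]
    refine mul_nonneg (by norm_num) (div_nonneg (Finset.sum_nonneg fun a _ =>
      Finset.sum_nonneg fun b _ => ?_) (by positivity))
    have hc' : 0 ≤ c * 4 ^ 0 := by positivity
    exact add_nonneg (add_nonneg (ell_nonneg ((S_psd _ _).smul hc'))
      (ell_nonneg ((S_psd _ _).smul hc'))) (ell_nonneg ((S_psd _ _).smul hc'))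
  | succ D ih =>
    rw [Finset.sum_range_succ]
    have := level_step F0 F1 F2 h0 h1 h2 (c := c * 4 ^ D) (by positivity) D
    rw [show 4 * (c * 4 ^ D) = c * 4 ^ (D + 1) by ring] at this
    generalize (∑ a ∈ Finset.range (2 ^ (D + 1)), ∑ b ∈ Finset.range (2 ^ (D + 1)),
      bell μ0 μ1 μ2 F0 F1 F2 (c * 4 ^ (D + 1)) (D + 1) a b) = B' at this ⊢
    generalize (∑ a ∈ Finset.range (2 ^ D), ∑ b ∈ Finset.range (2 ^ D),
      bell μ0 μ1 μ2 F0 F1 F2 (c * 4 ^ D) D a b) = B at this ih ⊢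
    generalize (∑ a ∈ Finset.range (2 ^ D), ∑ b ∈ Finset.range (2 ^ D),
      ee μ0 μ1 μ2 F0 F1 F2 (c * 4 ^ D) D a b) = A at this ih ⊢
    have h4 : (0:ℝ) < 4 ^ D := by positivity
    have : 2 * (B / 4 ^ D) + A / 4 ^ D ≤ 2 * (B' / 4 ^ (D + 1)) := by
      rw [pow_succ]
      have e : 2 * (B' / (4 ^ D * 4)) - (2 * (B / 4 ^ D) + A / 4 ^ D)
          = (B' - (4 * B + 2 * A)) / (2 * 4 ^ D) := by field_simp; ring
      have : 0 ≤ (B' - (4 * B + 2 * A)) / (2 * 4 ^ D) := div_nonneg (by linarith) (by positivity)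
      linarith
    linarith

lemma TT_eq (h0 : Mask μ0) (h1 : Mask μ1) (h2 : Mask μ2) (d a b : ℕ) :
    TT μ0 μ1 μ2 F0 F1 F2 d a b =
      (mk (μ0 d a) (μ1 d b) F0 * diagonal (hh μ1 d b) * mk (μ1 d b) (μ2 d (a ^^^ b)) F1 *
        diagonal (hh μ2 d (a ^^^ b)) * mk (μ2 d (a ^^^ b)) (μ0 d a) F2 *
        diagonal (hh μ0 d a)).trace := by
  simp only [TT, trace, diag, mul_diagonal, Matrix.mul_apply (N := mk (μ2 d (a ^^^ b)) (μ0 d a) F2),
    Matrix.mul_apply (N := mk (μ1 d b) (μ2 d (a ^^^ b)) F1), Finset.sum_mul]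
  refine Finset.sum_congr rfl fun i _ => ?_
  rw [Finset.sum_comm]
  refine Finset.sum_congr rfl fun l _ => Finset.sum_congr rfl fun j _ => ?_
  simp only [mk, of_apply]
  have e0 := h0.mul_hh d a i
  have e1 := h1.mul_hh d b j
  have e2 := h2.mul_hh d (a ^^^ b) l
  calc _ = F0 i j * F1 j l * F2 l i * ((μ0 d a i * (μ0 d a i * hh μ0 d a i)) *
      (μ1 d b j * (μ1 d b j * hh μ1 d b j)) *
      (μ2 d (a ^^^ b) l * (μ2 d (a ^^^ b) l * hh μ2 d (a ^^^ b) l))) := by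
        simp only [e0, e1, e2]
    _ = _ := by ring

lemma disc_main (h0 : Mask μ0) (h1 : Mask μ1) (h2 : Mask μ2) (D : ℕ) :
    ∑ d ∈ Finset.range D, 2 ^ d * ∑ a ∈ Finset.range (2 ^ d), ∑ b ∈ Finset.range (2 ^ d),
      |TT μ0 μ1 μ2 F0 F1 F2 d a b| ≤
    80 * 2 ^ D * ∑ a ∈ Finset.range (2 ^ D), ∑ b ∈ Finset.range (2 ^ D),
      (Real.sqrt (S (mk (μ0 D a) (μ1 D b) F0) (mk (μ1 D b) (μ2 D (a ^^^ b)) F1)).trace ^ 3 +
      Real.sqrt (S (mk (μ1 D b) (μ2 D (a ^^^ b)) F1) (mk (μ2 D (a ^^^ b)) (μ0 D a) F2)).trace ^ 3 +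
      Real.sqrt (S (mk (μ2 D (a ^^^ b)) (μ0 D a) F2) (mk (μ0 D a) (μ1 D b) F0)).trace ^ 3) := by
  have all : ∀ᶠ N in atTop, ∀ d ∈ Finset.range D, ∀ a ∈ Finset.range (2 ^ d),
      ∀ b ∈ Finset.range (2 ^ d), |TT μ0 μ1 μ2 F0 F1 F2 d a b| ≤
        10 * ∑ j ∈ Finset.range (2 * N), rho (1 / 2 ^ d) N j ^ 3 *
          ee μ0 μ1 μ2 F0 F1 F2 (rho (1 / 2 ^ d) N j ^ 2)⁻¹ d a b := by
    refine (eventually_all_finset _).2 fun d _ => (eventually_all_finset _).2 fun a _ =>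
      (eventually_all_finset _).2 fun b _ => ?_
    rw [TT_eq F0 F1 F2 h0 h1 h2]
    exact trilinear _ _ _ (h0.abs_hh d a) (h1.abs_hh d b) (h2.abs_hh d _) (by positivity)
  obtain ⟨N, hN⟩ := all.exists
  have r1 : ∀ d j : ℕ, (rho (1 / 2 ^ d) N j ^ 2)⁻¹ = (rho 1 N j ^ 2)⁻¹ * 4 ^ d := by
    intro d j
    have : (4:ℝ) ^ d = (2 ^ d) ^ 2 := by rw [← pow_mul, mul_comm, pow_mul]; norm_num
    rw [this]; unfold rho; field_simp
  have r2 : ∀ d j : ℕ, 2 ^ d * rho (1 / 2 ^ d) N j ^ 3 = rho 1 N j ^ 3 / 4 ^ d := by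
    intro d j
    have : (4:ℝ) ^ d = (2 ^ d) ^ 2 := by rw [← pow_mul, mul_comm, pow_mul]; norm_num
    rw [this]; unfold rho; field_simp
  have fin : ∀ X Y : Matrix n n ℝ, ∑ j ∈ Finset.range (2 * N), rho (1 / 2 ^ D) N j ^ 3 *
      ell ((rho (1 / 2 ^ D) N j ^ 2)⁻¹ • S X Y) ≤ 4 * Real.sqrt (S X Y).trace ^ 3 := by
    intro X Y
    refine le_trans (Finset.sum_le_sum fun j _ => ?_)
      (geom (r := 1 / 2 ^ D) (by positivity) (S_psd X Y).trace_nonneg N (2 * N))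
    have hp := rho_pos (r := 1 / 2 ^ D) (by positivity) N j
    have := ell_le ((S_psd X Y).smul (a := (rho (1 / 2 ^ D) N j ^ 2)⁻¹) (by positivity))
    rw [trace_smul, smul_eq_mul] at this
    exact mul_le_mul_of_nonneg_left this (by positivity)
  calc _ ≤ ∑ d ∈ Finset.range D, 2 ^ d * ∑ a ∈ Finset.range (2 ^ d), ∑ b ∈ Finset.range (2 ^ d),
        10 * ∑ j ∈ Finset.range (2 * N), rho (1 / 2 ^ d) N j ^ 3 *
          ee μ0 μ1 μ2 F0 F1 F2 (rho (1 / 2 ^ d) N j ^ 2)⁻¹ d a b := by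
        refine Finset.sum_le_sum fun d hd => mul_le_mul_of_nonneg_left ?_ (by positivity)
        exact Finset.sum_le_sum fun a ha => Finset.sum_le_sum fun b hb => hN d hd a ha b hb
    _ = 10 * ∑ j ∈ Finset.range (2 * N), rho 1 N j ^ 3 * ∑ d ∈ Finset.range D,
        (∑ a ∈ Finset.range (2 ^ d), ∑ b ∈ Finset.range (2 ^ d),
          ee μ0 μ1 μ2 F0 F1 F2 ((rho 1 N j ^ 2)⁻¹ * 4 ^ d) d a b) / 4 ^ d := by
        simp only [Finset.mul_sum (s := Finset.range D)]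
        rw [Finset.sum_comm, Finset.mul_sum]
        refine Finset.sum_congr rfl fun d _ => ?_
        simp only [← Finset.mul_sum (s := Finset.range (2 ^ d))]
        rw [Finset.sum_comm_cycle, mul_left_comm, Finset.mul_sum (s := Finset.range (2 * N))]
        congr 1
        refine Finset.sum_congr rfl fun j _ => ?_
        simp only [← Finset.mul_sum (s := Finset.range (2 ^ d))]
        rw [← mul_assoc, r2, r1]; ring
    _ ≤ 10 * ∑ j ∈ Finset.range (2 * N), rho 1 N j ^ 3 *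
        (2 * ((∑ a ∈ Finset.range (2 ^ D), ∑ b ∈ Finset.range (2 ^ D),
          bell μ0 μ1 μ2 F0 F1 F2 ((rho 1 N j ^ 2)⁻¹ * 4 ^ D) D a b) / 4 ^ D)) := by
        refine mul_le_mul_of_nonneg_left (Finset.sum_le_sum fun j _ => ?_) (by norm_num)
        have hp := rho_pos (r := 1) (by positivity) N j
        exact mul_le_mul_of_nonneg_left (telescope F0 F1 F2 h0 h1 h2 (by positivity) D)
          (by positivity)
    _ = 20 * 2 ^ D * ∑ a ∈ Finset.range (2 ^ D), ∑ b ∈ Finset.range (2 ^ D),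
        ∑ j ∈ Finset.range (2 * N), rho (1 / 2 ^ D) N j ^ 3 *
          bell μ0 μ1 μ2 F0 F1 F2 (rho (1 / 2 ^ D) N j ^ 2)⁻¹ D a b := by
        rw [Finset.sum_comm_cycle, Finset.mul_sum, Finset.mul_sum]
        refine Finset.sum_congr rfl fun j _ => ?_
        simp only [← Finset.mul_sum (s := Finset.range (2 ^ D))]
        rw [mul_assoc 20, ← mul_assoc (2 ^ D), r2, r1]; ring
    _ ≤ _ := by
        rw [show (80:ℝ) * 2 ^ D = 20 * 2 ^ D * 4 by ring, mul_assoc _ 4]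
        refine mul_le_mul_of_nonneg_left ?_ (by positivity)
        simp only [Finset.mul_sum (s := Finset.range (2 ^ D))]
        refine Finset.sum_le_sum fun a _ => Finset.sum_le_sum fun b _ => ?_
        simp only [bell, mul_add, Finset.sum_add_distrib]
        exact add_le_add (add_le_add (fin _ _) (fin _ _)) (fin _ _)

end

lemma sum_xor (D b : ℕ) (hb : b < 2 ^ D) (f : ℕ → ℝ) :
    ∑ a ∈ Finset.range (2 ^ D), f (a ^^^ b) = ∑ a ∈ Finset.range (2 ^ D), f a := by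
  refine Finset.sum_nbij' (fun a => a ^^^ b) (fun a => a ^^^ b) ?_ ?_ ?_ ?_ ?_
  · intro a ha
    exact Finset.mem_range.2 (Nat.xor_lt_two_pow (Finset.mem_range.1 ha) hb)
  · intro a ha
    exact Finset.mem_range.2 (Nat.xor_lt_two_pow (Finset.mem_range.1 ha) hb)
  · intro a _; simp
  · intro a _; simp
  · intro a _; rfl

lemma sqrt_cube (p q : ℝ) : Real.sqrt (p ^ 2 + q ^ 2) ^ 3 ≤ 4 * (|p| ^ 3 + |q| ^ 3) := by
  have h1 : Real.sqrt (p ^ 2 + q ^ 2) ≤ |p| + |q| := by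
    rw [Real.sqrt_le_left (by positivity), ← sq_abs p, ← sq_abs q]
    nlinarith [mul_nonneg (abs_nonneg p) (abs_nonneg q)]
  have h2 : Real.sqrt (p ^ 2 + q ^ 2) ^ 3 ≤ (|p| + |q|) ^ 3 :=
    pow_le_pow_left₀ (Real.sqrt_nonneg _) h1 3
  have h3 : 0 ≤ (|p| + |q|) * (|p| - |q|) ^ 2 := by positivity
  nlinarith

lemma disc {D : ℕ} {μ0 μ1 μ2 : ℕ → ℕ → Fin (2 ^ D) → ℝ} (h0 : Mask μ0) (h1 : Mask μ1)
    (h2 : Mask μ2) (l0 : ∀ k i, μ0 D k i = if (i : ℕ) = k then 1 else 0)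
    (l1 : ∀ k i, μ1 D k i = if (i : ℕ) = k then 1 else 0)
    (l2 : ∀ k i, μ2 D k i = if (i : ℕ) = k then 1 else 0) (f0 f1 f2 : ℕ → ℕ → ℝ) :
    ∑ d ∈ Finset.range D, 2 ^ d * ∑ a ∈ Finset.range (2 ^ d), ∑ b ∈ Finset.range (2 ^ d),
      |∑ i : Fin (2 ^ D), ∑ j : Fin (2 ^ D), ∑ l : Fin (2 ^ D), f0 i j * f1 j l * f2 l i *
        (hh μ0 d a i * hh μ1 d b j * hh μ2 d (a ^^^ b) l)| ≤
    640 * 2 ^ D * ((∑ i : Fin (2 ^ D), ∑ j : Fin (2 ^ D), |f0 i j| ^ 3) +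
      (∑ i : Fin (2 ^ D), ∑ j : Fin (2 ^ D), |f1 i j| ^ 3) +
      ∑ i : Fin (2 ^ D), ∑ j : Fin (2 ^ D), |f2 i j| ^ 3) := by
  have main := disc_main (Matrix.of fun i j : Fin (2 ^ D) => f0 i j)
    (Matrix.of fun i j : Fin (2 ^ D) => f1 i j) (Matrix.of fun i j : Fin (2 ^ D) => f2 i j)
    h0 h1 h2 D
  refine le_trans main ?_
  have tr : ∀ (p q r : Fin (2 ^ D) → ℝ) (a b c : ℕ) (f f' : ℕ → ℕ → ℝ), a < 2 ^ D → b < 2 ^ D →
      c < 2 ^ D → (∀ i, p i = if (i : ℕ) = a then 1 else 0) →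
      (∀ i, q i = if (i : ℕ) = b then 1 else 0) → (∀ i, r i = if (i : ℕ) = c then 1 else 0) →
      (S (mk p q (Matrix.of fun i j : Fin (2 ^ D) => f i j))
        (mk q r (Matrix.of fun i j : Fin (2 ^ D) => f' i j))).trace = f a b ^ 2 + f' b c ^ 2 := by
    intro p q r a b c f f' ha hb hc hp hq hr
    have one : ∀ (p q : Fin (2 ^ D) → ℝ) (a b : ℕ) (f : ℕ → ℕ → ℝ), a < 2 ^ D → b < 2 ^ D →
        (∀ i, p i = if (i : ℕ) = a then 1 else 0) → (∀ i, q i = if (i : ℕ) = b then 1 else 0) →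
        ∑ i : Fin (2 ^ D), ∑ j : Fin (2 ^ D), (p i * f i j * q j) * (p i * f i j * q j)
          = f a b ^ 2 := by
      intro p q a b f ha hb hp hq
      rw [Finset.sum_eq_single (⟨a, ha⟩ : Fin (2 ^ D)), Finset.sum_eq_single (⟨b, hb⟩ : Fin (2 ^ D))]
      · simp [hp, hq, sq]
      · intro j _ hj
        have : (j : ℕ) ≠ b := fun h => hj (Fin.ext h)
        simp [hq, this]
      · simp
      · intro i _ hi
        have : (i : ℕ) ≠ a := fun h => hi (Fin.ext h)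
        simp [hp, this]
      · simp
    rw [S, trace_add, trace_mul_comm, ← one p q a b f ha hb hp hq, ← one q r b c f' hb hc hq hr]
    simp only [trace, diag, Matrix.mul_apply, mk, transpose_apply, of_apply]
  rw [show (640:ℝ) * 2 ^ D = 80 * 2 ^ D * 8 by ring, mul_assoc _ 8]
  refine mul_le_mul_of_nonneg_left ?_ (by positivity)
  have conv : ∀ f : ℕ → ℕ → ℝ, ∑ i : Fin (2 ^ D), ∑ j : Fin (2 ^ D), |f i j| ^ 3 =
      ∑ a ∈ Finset.range (2 ^ D), ∑ b ∈ Finset.range (2 ^ D), |f a b| ^ 3 := by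
    intro f
    rw [Finset.sum_range (fun a => ∑ b ∈ Finset.range (2 ^ D), |f a b| ^ 3)]
    refine Finset.sum_congr rfl fun i _ => ?_
    rw [Finset.sum_range (fun b => |f i b| ^ 3)]
  have c1 : ∑ a ∈ Finset.range (2 ^ D), ∑ b ∈ Finset.range (2 ^ D), |f1 a b| ^ 3 =
      ∑ a ∈ Finset.range (2 ^ D), ∑ b ∈ Finset.range (2 ^ D), |f1 b (a ^^^ b)| ^ 3 := by
    rw [Finset.sum_comm (f := fun a b => |f1 b (a ^^^ b)| ^ 3)]
    refine Finset.sum_congr rfl fun b hb => ?_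
    exact (sum_xor D b (Finset.mem_range.1 hb) (fun c => |f1 b c| ^ 3)).symm
  have c2 : ∑ a ∈ Finset.range (2 ^ D), ∑ b ∈ Finset.range (2 ^ D), |f2 a b| ^ 3 =
      ∑ a ∈ Finset.range (2 ^ D), ∑ b ∈ Finset.range (2 ^ D), |f2 (a ^^^ b) a| ^ 3 := by
    rw [Finset.sum_comm]
    refine Finset.sum_congr rfl fun a ha => ?_
    simp only [Nat.xor_comm a]
    exact (sum_xor D a (Finset.mem_range.1 ha) (fun c => |f2 c a| ^ 3)).symm
  rw [conv, conv, conv, c1, c2]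
  simp only [← Finset.sum_add_distrib, Finset.mul_sum]
  refine Finset.sum_le_sum fun a ha => Finset.sum_le_sum fun b hb => ?_
  have ha' := Finset.mem_range.1 ha
  have hb' := Finset.mem_range.1 hb
  have hc' := Nat.xor_lt_two_pow ha' hb'
  rw [tr _ _ _ a b (a ^^^ b) f0 f1 ha' hb' hc' (l0 a) (l1 b) (l2 _),
    tr _ _ _ b (a ^^^ b) a f1 f2 hb' hc' ha' (l1 b) (l2 _) (l0 a),
    tr _ _ _ (a ^^^ b) a b f2 f0 hc' ha' hb' (l2 _) (l0 a) (l1 b)]
  linarith [sqrt_cube (f0 a b) (f1 b (a ^^^ b)), sqrt_cube (f1 b (a ^^^ b)) (f2 (a ^^^ b) a),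
    sqrt_cube (f2 (a ^^^ b) a) (f0 a b)]

end Vale.Agent.P075
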