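import Mathlib

open MeasureTheory Set

namespace Vale.Agent.P075

lemma restrict_decomp {δ : ℝ} (hδ : 0 < δ) (N : ℕ) :
    (volume : Measure ℝ).restrict (Ico 0 (δ * N)) =
      ∑ i : Fin N, (volume.restrict (Ico 0 δ)).map (fun t => δ * (i : ℕ) + t) := by
  have h1 : ∀ i : ℕ, (volume.restrict (Ico 0 δ)).map (fun t => δ * i + t) =
      (volume : Measure ℝ).restrict (Ico (δ * i) (δ * (i + 1))) := by
    intro i
    have := (measurePreserving_add_left (volume : Measure ℝ) (δ * i)).restrict_preimage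
      (s := Ico (δ * i) (δ * (i + 1))) measurableSet_Ico
    have e : (fun t => δ * i + t) ⁻¹' Ico (δ * i) (δ * (i + 1)) = Ico 0 δ := by
      ext t; simp only [mem_preimage, mem_Ico]; constructor <;> rintro ⟨a, b⟩ <;>
        constructor <;> linarith
    rw [e] at this
    exact this.map_eq
  simp only [h1]
  rw [← Finset.sum_range (fun i : ℕ => (volume : Measure ℝ).restrict (Ico (δ * i) (δ * (i + 1))))]
  induction N with
  | zero => simp
  | succ N ih =>
    rw [Finset.sum_range_succ, ← ih, ← Measure.restrict_union (Ico_disjoint_Ico_same)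
      measurableSet_Ico, Ico_union_Ico_eq_Ico (by positivity) (by nlinarith)]
    push_cast; rfl

lemma integral_decomp {α ι : Type*} [MeasurableSpace α] [Fintype ι] (ν : Measure α)
    (τ : ι → α → α) (hτ : ∀ i, MeasurableEmbedding (τ i)) {Φ : α → ℝ}
    (hΦ : Integrable Φ (∑ i, ν.map (τ i))) :
    Integrable (fun t => ∑ i, Φ (τ i t)) ν ∧
      ∫ x, Φ x ∂(∑ i, ν.map (τ i)) = ∫ t, ∑ i, Φ (τ i t) ∂ν := by
  have h1 : ∀ i, Integrable Φ (ν.map (τ i)) := fun i =>
    (integrable_finsetSum_measure.1 hΦ) i (Finset.mem_univ i)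
  have h2 : ∀ i, Integrable (fun t => Φ (τ i t)) ν := fun i => (hτ i).integrable_map_iff.1 (h1 i)
  refine ⟨integrable_finsetSum _ fun i _ => h2 i, ?_⟩
  rw [integral_finsetSum_measure fun i _ => h1 i, integral_finsetSum _ fun i _ => h2 i]
  exact Finset.sum_congr rfl fun i _ => (hτ i).integral_map _

lemma prod_decomp {α β ι κ : Type*} [MeasurableSpace α] [MeasurableSpace β] [Fintype ι]
    [Fintype κ] (ν : Measure α) (ν' : Measure β) [SFinite ν] [SFinite ν']
    (τ : ι → α → α) (τ' : κ → β → β) (hτ : ∀ i, Measurable (τ i)) (hτ' : ∀ i, Measurable (τ' i)) :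
    (∑ i, ν.map (τ i)).prod (∑ j, ν'.map (τ' j)) =
      ∑ p : ι × κ, (ν.prod ν').map (Prod.map (τ p.1) (τ' p.2)) := by
  rw [← Measure.sum_fintype, ← Measure.sum_fintype, Measure.prod_sum, Measure.sum_fintype]
  exact Finset.sum_congr rfl fun p _ => Measure.map_prod_map _ _ (hτ _) (hτ' _)

lemma marg01 (ν : Measure ℝ) [IsFiniteMeasure ν] :
    (ν.prod (ν.prod ν)).map (fun t => (t.1, t.2.1)) = ν univ • ν.prod ν := by
  have := Measure.map_prod_map ν (ν.prod ν) measurable_id (measurable_fst (α := ℝ) (β := ℝ))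
  rw [Measure.map_id, Measure.map_fst_prod, Measure.prod_smul_right] at this
  exact this.symm

lemma marg12 (ν : Measure ℝ) [IsFiniteMeasure ν] :
    (ν.prod (ν.prod ν)).map (fun t => (t.2.1, t.2.2)) = ν univ • ν.prod ν :=
  Measure.map_snd_prod

lemma marg20 (ν : Measure ℝ) [IsFiniteMeasure ν] :
    (ν.prod (ν.prod ν)).map (fun t => (t.2.2, t.1)) = ν univ • ν.prod ν := by
  have := Measure.map_prod_map ν (ν.prod ν) measurable_id (measurable_snd (α := ℝ) (β := ℝ))
  rw [Measure.map_id, Measure.map_snd_prod, Measure.prod_smul_right] at this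
  have e : (fun t : ℝ × ℝ × ℝ => (t.2.2, t.1)) = Prod.swap ∘ Prod.map id Prod.snd := rfl
  rw [e, ← Measure.map_map measurable_swap (measurable_id.prodMap measurable_snd), ← this,
    Measure.map_smul, Measure.prod_swap]

lemma marg_meas {α β : Type*} [MeasurableSpace α] [MeasurableSpace β] {ρ : Measure α}
    {ρ' : Measure β} {π : α → β} (hπ : Measurable π) {c : ENNReal} (h : ρ.map π = c • ρ')
    {g : β → ℝ} (hg : AEStronglyMeasurable g ρ') : AEStronglyMeasurable (fun t => g (π t)) ρ := by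
  have : AEStronglyMeasurable g (ρ.map π) := by rw [h]; exact hg.smul_measure c
  exact this.comp_measurable hπ

lemma marg_int {α β : Type*} [MeasurableSpace α] [MeasurableSpace β] {ρ : Measure α}
    {ρ' : Measure β} {π : α → β} (hπ : Measurable π) {c : ENNReal} (hc : c ≠ ⊤)
    (h : ρ.map π = c • ρ') {g : β → ℝ} (hg : Integrable g ρ') :
    Integrable (fun t => g (π t)) ρ ∧ ∫ t, g (π t) ∂ρ = c.toReal * ∫ x, g x ∂ρ' := by
  have h1 : Integrable g (ρ.map π) := by rw [h]; exact hg.smul_measure hc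
  refine ⟨h1.comp_measurable hπ, ?_⟩
  rw [← integral_map hπ.aemeasurable h1.aestronglyMeasurable, h, integral_smul_measure,
    smul_eq_mul]

end Vale.Agent.P075
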