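import Vale.Agent.P075.Defs
import Vale.Agent.P075.Disc
import Vale.Agent.P075.Meas

open MeasureTheory Set

namespace Vale.Agent.P075

lemma two_zpow_pred (k : ℤ) : (2 : ℝ) ^ (k - 1) = 2 ^ k / 2 := by
  rw [zpow_sub₀ (by norm_num), zpow_one]

lemma dyadLeft_eq (k : ℤ) (n : ℕ) : dyadLeft k n = dyad (k - 1) (2 * n) := by
  unfold dyadLeft dyad
  rw [two_zpow_pred]; push_cast
  congr 1 <;> ring

lemma dyadRight_eq (k : ℤ) (n : ℕ) : dyadRight k n = dyad (k - 1) (2 * n + 1) := by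
  unfold dyadRight dyad
  rw [two_zpow_pred]; push_cast
  congr 1 <;> ring

lemma dyad_union (k : ℤ) (n : ℕ) : dyad k n = dyadLeft k n ∪ dyadRight k n := by
  have : (0:ℝ) < 2 ^ k := by positivity
  unfold dyad dyadLeft dyadRight
  rw [Ico_union_Ico_eq_Ico (by nlinarith) (by nlinarith)]

lemma dyad_disj (k : ℤ) (n : ℕ) : Disjoint (dyadLeft k n) (dyadRight k n) := Ico_disjoint_Ico_same

lemma haar_eq_zero {k : ℤ} {n : ℕ} {x : ℝ} (h : x ∉ dyad k n) : haar k n x = 0 := by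
  rw [dyad_union, mem_union, not_or] at h
  rw [haar, indicator_of_notMem h.1, indicator_of_notMem h.2, sub_zero]

lemma abs_haar_le (k : ℤ) (n : ℕ) (x : ℝ) : |haar k n x| ≤ 1 := by
  unfold haar
  by_cases h1 : x ∈ dyadLeft k n <;> by_cases h2 : x ∈ dyadRight k n <;> simp [h1, h2]

lemma measurable_haar (k : ℤ) (n : ℕ) : Measurable (haar k n) :=
  (measurable_const.indicator measurableSet_Ico).sub (measurable_const.indicator measurableSet_Ico)

noncomputable def msk (K : ℤ) (D : ℕ) (t : ℝ) (d k : ℕ) (i : Fin (2 ^ D)) : ℝ :=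
  (dyad (K - d) k).indicator (fun _ => (1 : ℝ)) ((2 : ℝ) ^ (K - D) * (i : ℕ) + t)

lemma msk_mask (K : ℤ) (D : ℕ) (t : ℝ) : Mask (msk K D t) where
  split d k := by
    ext i
    simp only [msk, Pi.add_apply]
    rw [dyad_union, indicator_union_of_disjoint (dyad_disj _ _), dyadLeft_eq, dyadRight_eq]
    push_cast
    rw [show K - (d + 1) = K - d - 1 by ring]
  idem d k i := by
    unfold msk
    by_cases h : ((2 : ℝ) ^ (K - D) * (i : ℕ) + t) ∈ dyad (K - d) k <;> simp [h]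

lemma msk_hh (K : ℤ) (D : ℕ) (t : ℝ) (d k : ℕ) (i : Fin (2 ^ D)) :
    hh (msk K D t) d k i = haar (K - d) k ((2 : ℝ) ^ (K - D) * (i : ℕ) + t) := by
  simp only [hh, msk, Pi.sub_apply, haar]
  rw [dyadLeft_eq, dyadRight_eq]
  push_cast
  rw [show K - (d + 1) = K - d - 1 by ring]

lemma msk_last (K : ℤ) (D : ℕ) {t : ℝ} (ht : t ∈ Ico (0:ℝ) (2 ^ (K - D))) (k : ℕ)
    (i : Fin (2 ^ D)) : msk K D t D k i = if (i : ℕ) = k then 1 else 0 := by
  unfold msk dyad
  have hδ : (0:ℝ) < 2 ^ (K - D) := by positivity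
  generalize (2:ℝ) ^ (K - D) = δ at *
  obtain ⟨h1, h2⟩ := ht
  split_ifs with h
  · rw [indicator_of_mem]
    rw [h]; constructor <;> linarith
  · rw [indicator_of_notMem]
    rintro ⟨h3, h4⟩
    rcases lt_or_gt_of_ne h with h5 | h5
    · have : ((i : ℕ) : ℝ) + 1 ≤ k := by exact_mod_cast h5
      nlinarith
    · have : (k : ℝ) + 1 ≤ (i : ℕ) := by exact_mod_cast h5
      nlinarith

lemma measurableSet_quad : MeasurableSet quad := measurableSet_Ici.prod measurableSet_Ici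

lemma Admissible.integrable {F : ℝ × ℝ → ℝ} (h : Admissible F) :
    Integrable (fun p => |F p| ^ 3) (volume.restrict quad) := by
  obtain ⟨h1, ⟨M, hM⟩, K, hK, hK'⟩ := h
  have hm : MeasurableSet K := hK.measurableSet
  refine Integrable.mono' (g := K.indicator fun _ => M ^ 3) ?_ ?_ ?_
  · refine Integrable.restrict ?_
    rw [integrable_indicator_iff hm]
    exact integrableOn_const hK.measure_lt_top.ne
  · exact (continuous_abs.pow 3).comp_aestronglyMeasurable h1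
  · filter_upwards [ae_restrict_mem measurableSet_quad] with p hp
    rw [Real.norm_eq_abs, abs_of_nonneg (by positivity)]
    by_cases hpK : p ∈ K
    · rw [indicator_of_mem hpK]
      exact pow_le_pow_left₀ (abs_nonneg _) (hM p hp) 3
    · rw [indicator_of_notMem hpK, hK' p hp hpK]; simp

lemma Admissible.norm_cube {F : ℝ × ℝ → ℝ} (h : Admissible F) :
    normL3 F ^ 3 = ∫ p in quad, |F p| ^ 3 := by
  have e : ∀ p, ‖F p‖ ^ (3 : ENNReal).toReal = |F p| ^ 3 := by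
    intro p
    rw [show (3 : ENNReal).toReal = ((3 : ℕ) : ℝ) by norm_num, Real.rpow_natCast, Real.norm_eq_abs]
  have hm : MemLp F 3 (volume.restrict quad) := by
    rw [← integrable_norm_rpow_iff h.1 (by norm_num) (by norm_num)]
    simp only [e]; exact h.integrable
  have h0 : 0 ≤ ∫ p in quad, |F p| ^ 3 := integral_nonneg fun p => by positivity
  rw [normL3, hm.eLpNorm_eq_integral_rpow_norm (by norm_num) (by norm_num)]
  simp only [e]
  rw [ENNReal.toReal_ofReal (by positivity), show (3 : ENNReal).toReal = ((3 : ℕ) : ℝ) by norm_num,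
    Real.rpow_inv_natCast_pow h0 (by norm_num)]

lemma Admissible.smul {F : ℝ × ℝ → ℝ} (h : Admissible F) (c : ℝ) :
    Admissible (fun p => c * F p) := by
  obtain ⟨h1, ⟨M, hM⟩, K, hK, hK'⟩ := h
  refine ⟨h1.const_mul c, ⟨|c| * M, fun p hp => ?_⟩, K, hK, fun p hp hp' => ?_⟩
  · rw [abs_mul]; exact mul_le_mul_of_nonneg_left (hM p hp) (abs_nonneg c)
  · simp only [hK' p hp hp', mul_zero]

lemma add_bound (K : ℤ) (D : ℕ) {F0 F1 F2 : ℝ × ℝ → ℝ} (h0 : Admissible F0)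
    (h1 : Admissible F1) (h2 : Admissible F2) :
    ∑ d ∈ Finset.range D, ∑ a ∈ Finset.range (2 ^ d), ∑ b ∈ Finset.range (2 ^ d),
      |formL (K - d) (a, b, a ^^^ b) F0 F1 F2| ≤
    640 * ((∫ p in quad, |F0 p| ^ 3) + (∫ p in quad, |F1 p| ^ 3) + ∫ p in quad, |F2 p| ^ 3) := by
  set δ : ℝ := 2 ^ (K - D) with hδdef
  have hδ : 0 < δ := by positivity
  have hδN : δ * ((2 ^ D : ℕ) : ℝ) = 2 ^ K := by
    rw [hδdef, zpow_sub₀ (by norm_num)]; push_cast; rw [zpow_natCast]; field_simp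
  set B : Set ℝ := Ico 0 (δ * ((2 ^ D : ℕ) : ℝ)) with hB
  have hBm : MeasurableSet B := measurableSet_Ico
  set ν : Measure ℝ := volume.restrict (Ico 0 δ) with hν
  set μ : Measure ℝ := volume.restrict B with hμ
  have : IsFiniteMeasure ν := isFiniteMeasure_restrict.2 measure_Ico_lt_top.ne
  have : IsFiniteMeasure μ := isFiniteMeasure_restrict.2 measure_Ico_lt_top.ne
  set τ : Fin (2 ^ D) → ℝ → ℝ := fun i t => δ * (i : ℕ) + t with hτ
  have hτe : ∀ i, MeasurableEmbedding (τ i) := fun i => measurableEmbedding_addLeft _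
  have hτm : ∀ i, Measurable (τ i) := fun i => (hτe i).measurable
  have d1 : μ = ∑ i, ν.map (τ i) := restrict_decomp hδ _
  have d2 : μ.prod μ = ∑ p : Fin (2 ^ D) × Fin (2 ^ D),
      (ν.prod ν).map (Prod.map (τ p.1) (τ p.2)) := by
    rw [d1]; exact prod_decomp _ _ _ _ hτm hτm
  have d3 : μ.prod (μ.prod μ) = ∑ p : Fin (2 ^ D) × Fin (2 ^ D) × Fin (2 ^ D),
      (ν.prod (ν.prod ν)).map (Prod.map (τ p.1) (Prod.map (τ p.2.1) (τ p.2.2))) := by
    rw [d2]
    conv_lhs => rw [d1]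
    exact prod_decomp _ _ _ (fun p : Fin (2 ^ D) × Fin (2 ^ D) => Prod.map (τ p.1) (τ p.2)) hτm
      (fun p => (hτm _).prodMap (hτm _))
  have r2 : μ.prod μ = volume.restrict (B ×ˢ B) := by
    rw [hμ, Measure.prod_restrict, ← Measure.volume_eq_prod]
  have r3 : μ.prod (μ.prod μ) = volume.restrict (B ×ˢ B ×ˢ B) := by
    rw [r2, hμ, Measure.prod_restrict, ← Measure.volume_eq_prod]
  have hBq : B ×ˢ B ⊆ quad := prod_mono Ico_subset_Ici_self Ico_subset_Ici_self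
  have le2 : μ.prod μ ≤ volume.restrict quad := by
    rw [r2]; exact Measure.restrict_mono hBq le_rfl
  have hνu : (ν univ).toReal = δ := by
    rw [hν, Measure.restrict_apply_univ, Real.volume_Ico, sub_zero, ENNReal.toReal_ofReal hδ.le]
  -- the integrand
  set Φ : ℕ → ℕ → ℕ → ℝ × ℝ × ℝ → ℝ := fun d a b x =>
    F0 (x.1, x.2.1) * F1 (x.2.1, x.2.2) * F2 (x.2.2, x.1) *
      (haar (K - d) a x.1 * haar (K - d) b x.2.1 * haar (K - d) (a ^^^ b) x.2.2) with hΦ
  have hΦi : ∀ d a b, Integrable (Φ d a b) (μ.prod (μ.prod μ)) := by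
    intro d a b
    obtain ⟨M0, hM0⟩ := h0.2.1
    obtain ⟨M1, hM1⟩ := h1.2.1
    obtain ⟨M2, hM2⟩ := h2.2.1
    refine Integrable.of_bound ?_ (M0 * M1 * M2) ?_
    · refine AEStronglyMeasurable.mul (AEStronglyMeasurable.mul (AEStronglyMeasurable.mul ?_ ?_) ?_)
        (Measurable.aestronglyMeasurable ?_)
      · exact marg_meas (by fun_prop) (marg01 μ) (h0.1.mono_measure le2)
      · exact marg_meas (by fun_prop) (marg12 μ) (h1.1.mono_measure le2)
      · exact marg_meas (by fun_prop) (marg20 μ) (h2.1.mono_measure le2)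
      · exact (((measurable_haar _ _).comp measurable_fst).mul
          ((measurable_haar _ _).comp measurable_snd.fst)).mul
          ((measurable_haar _ _).comp measurable_snd.snd)
    · rw [r3]
      filter_upwards [ae_restrict_mem (hBm.prod (hBm.prod hBm))] with x hx
      have a0 := hM0 (x.1, x.2.1) (hBq ⟨hx.1, hx.2.1⟩)
      have a1 := hM1 (x.2.1, x.2.2) (hBq ⟨hx.2.1, hx.2.2⟩)
      have a2 := hM2 (x.2.2, x.1) (hBq ⟨hx.2.2, hx.1⟩)
      have b0 := abs_haar_le (K - d) a x.1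
      have b1 := abs_haar_le (K - d) b x.2.1
      have b2 := abs_haar_le (K - d) (a ^^^ b) x.2.2
      have c0 := (abs_nonneg _).trans a0
      have c1 := (abs_nonneg _).trans a1
      have c2 := (abs_nonneg _).trans a2
      simp only [hΦ, Real.norm_eq_abs, abs_mul]
      calc _ ≤ M0 * M1 * M2 * (1 * 1 * 1) := by gcongr
        _ = _ := by ring
  set Ψ : ℕ → ℕ → ℕ → ℝ × ℝ × ℝ → ℝ := fun d a b t =>
    ∑ p : Fin (2 ^ D) × Fin (2 ^ D) × Fin (2 ^ D),
      Φ d a b (Prod.map (τ p.1) (Prod.map (τ p.2.1) (τ p.2.2)) t) with hΨ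
  have hΨi : ∀ d a b, Integrable (Ψ d a b) (ν.prod (ν.prod ν)) ∧
      ∫ x, Φ d a b x ∂(μ.prod (μ.prod μ)) = ∫ t, Ψ d a b t ∂(ν.prod (ν.prod ν)) := by
    intro d a b
    have := hΦi d a b
    rw [d3] at this ⊢
    exact integral_decomp _ _ (fun p => (hτe _).prodMap ((hτe _).prodMap (hτe _))) this
  have sub : ∀ d a : ℕ, a < 2 ^ d → dyad (K - d) a ⊆ B := by
    intro d a ha
    have hp : (0:ℝ) < 2 ^ (K - d) := by positivity
    refine Ico_subset_Ico (by positivity) ?_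
    rw [hδN]
    have : (a : ℝ) + 1 ≤ 2 ^ d := by exact_mod_cast ha
    calc _ ≤ (2:ℝ) ^ (K - d) * 2 ^ d := by gcongr
      _ = _ := by rw [zpow_sub₀ (by norm_num), zpow_natCast]; field_simp
  have hL : ∀ d a b : ℕ, a < 2 ^ d → b < 2 ^ d → |formL (K - d) (a, b, a ^^^ b) F0 F1 F2| ≤
      ∫ t, 2 ^ (-K) * (2 ^ d * |Ψ d a b t|) ∂(ν.prod (ν.prod ν)) := by
    intro d a b ha hb
    have e : formL (K - d) (a, b, a ^^^ b) F0 F1 F2 =
        2 ^ (-K) * (2 ^ d * ∫ t, Ψ d a b t ∂(ν.prod (ν.prod ν))) := by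
      rw [← (hΨi d a b).2, r3, formL, ← mul_assoc, neg_sub, sub_eq_neg_add,
        zpow_add₀ (by norm_num), zpow_natCast]
      congr 1
      symm
      refine setIntegral_eq_of_subset_of_forall_sdiff_eq_zero (hBm.prod (hBm.prod hBm))
        (prod_mono (sub d a ha) (prod_mono (sub d b hb) (sub d _ (Nat.xor_lt_two_pow ha hb)))) ?_
      intro x hx
      have := hx.2
      simp only [mem_prod, not_and_or] at this
      rcases this with h | h | h <;> simp [hΦ, haar_eq_zero h]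
    rw [e, integral_const_mul, integral_const_mul, abs_mul, abs_mul,
      abs_of_pos (by positivity : (0:ℝ) < 2 ^ (-K)), abs_of_pos (by positivity : (0:ℝ) < 2 ^ d)]
    gcongr
    exact abs_integral_le_integral_abs
  -- the right-hand side
  have hR : ∀ {F : ℝ × ℝ → ℝ}, Admissible F → ∀ π : ℝ × ℝ × ℝ → ℝ × ℝ, Measurable π →
      (ν.prod (ν.prod ν)).map π = ν univ • ν.prod ν →
      Integrable (fun t => ∑ i : Fin (2 ^ D), ∑ j : Fin (2 ^ D),
        |F (τ i (π t).1, τ j (π t).2)| ^ 3) (ν.prod (ν.prod ν)) ∧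
      ∫ t, ∑ i : Fin (2 ^ D), ∑ j : Fin (2 ^ D), |F (τ i (π t).1, τ j (π t).2)| ^ 3
        ∂(ν.prod (ν.prod ν)) ≤ δ * ∫ p in quad, |F p| ^ 3 := by
    intro F hF π hπ hm
    have i1 := hF.integrable.mono_measure le2
    have i2 : ∫ p, |F p| ^ 3 ∂(μ.prod μ) ≤ ∫ p in quad, |F p| ^ 3 :=
      integral_mono_measure le2 (Filter.Eventually.of_forall fun p => by positivity) hF.integrable
    rw [d2] at i1 i2
    have i3 := integral_decomp _ _ (fun p => (hτe _).prodMap (hτe _)) i1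
    rw [i3.2] at i2
    have i4 := marg_int hπ (measure_ne_top ν univ) hm i3.1
    simp only [Fintype.sum_prod_type] at i4 i2
    refine ⟨i4.1, ?_⟩
    refine le_trans (le_of_eq i4.2) ?_
    rw [hνu]
    exact mul_le_mul_of_nonneg_left i2 hδ.le
  obtain ⟨j0, k0⟩ := hR h0 _ (by fun_prop) (marg01 ν)
  obtain ⟨j1, k1⟩ := hR h1 _ (by fun_prop) (marg12 ν)
  obtain ⟨j2, k2⟩ := hR h2 _ (by fun_prop) (marg20 ν)
  dsimp only at j0 j1 j2 k0 k1 k2
  have ii : ∀ d a b : ℕ, Integrable (fun t => 2 ^ (-K) * (2 ^ d * |Ψ d a b t|))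
      (ν.prod (ν.prod ν)) := fun d a b => ((hΨi d a b).1.abs.const_mul _).const_mul _
  have rν : ν.prod (ν.prod ν) = volume.restrict (Ico 0 δ ×ˢ Ico 0 δ ×ˢ Ico 0 δ) := by
    rw [hν, Measure.prod_restrict, Measure.prod_restrict, ← Measure.volume_eq_prod,
      ← Measure.volume_eq_prod]
  calc _ ≤ ∑ d ∈ Finset.range D, ∑ a ∈ Finset.range (2 ^ d), ∑ b ∈ Finset.range (2 ^ d),
        ∫ t, 2 ^ (-K) * (2 ^ d * |Ψ d a b t|) ∂(ν.prod (ν.prod ν)) :=
        Finset.sum_le_sum fun d _ => Finset.sum_le_sum fun a ha => Finset.sum_le_sum fun b hb =>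
          hL d a b (Finset.mem_range.1 ha) (Finset.mem_range.1 hb)
    _ = ∫ t, ∑ d ∈ Finset.range D, ∑ a ∈ Finset.range (2 ^ d), ∑ b ∈ Finset.range (2 ^ d),
        2 ^ (-K) * (2 ^ d * |Ψ d a b t|) ∂(ν.prod (ν.prod ν)) := by
        rw [integral_finsetSum _ fun d _ => integrable_finsetSum _ fun a _ =>
          integrable_finsetSum _ fun b _ => ii d a b]
        refine Finset.sum_congr rfl fun d _ => ?_
        rw [integral_finsetSum _ fun a _ => integrable_finsetSum _ fun b _ => ii d a b]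
        refine Finset.sum_congr rfl fun a _ => ?_
        rw [integral_finsetSum _ fun b _ => ii d a b]
    _ ≤ ∫ t, 2 ^ (-K) * (640 * 2 ^ D * ((∑ i : Fin (2 ^ D), ∑ j : Fin (2 ^ D),
          |F0 (τ i t.1, τ j t.2.1)| ^ 3) + (∑ i : Fin (2 ^ D), ∑ j : Fin (2 ^ D),
          |F1 (τ i t.2.1, τ j t.2.2)| ^ 3) + ∑ i : Fin (2 ^ D), ∑ j : Fin (2 ^ D),
          |F2 (τ i t.2.2, τ j t.1)| ^ 3)) ∂(ν.prod (ν.prod ν)) := by
        refine integral_mono_ae (integrable_finsetSum _ fun d _ => integrable_finsetSum _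
          fun a _ => integrable_finsetSum _ fun b _ => ii d a b)
          ((((j0.add j1).add j2).const_mul _).const_mul _) ?_
        rw [rν]
        filter_upwards [ae_restrict_mem (measurableSet_Ico.prod
          (measurableSet_Ico.prod measurableSet_Ico))] with t ht
        simp only [← Finset.mul_sum]
        refine mul_le_mul_of_nonneg_left ?_ (by positivity)
        have := disc (msk_mask K D t.1) (msk_mask K D t.2.1) (msk_mask K D t.2.2)
          (msk_last K D ht.1) (msk_last K D ht.2.1) (msk_last K D ht.2.2)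
          (fun i j => F0 (δ * i + t.1, δ * j + t.2.1)) (fun i j => F1 (δ * i + t.2.1, δ * j + t.2.2))
          (fun i j => F2 (δ * i + t.2.2, δ * j + t.1))
        simp only [msk_hh] at this
        simp only [hΨ, hΦ, Fintype.sum_prod_type]
        exact this
    _ ≤ _ := by
        rw [integral_const_mul, integral_const_mul, integral_add (j0.fun_add j1) j2,
          integral_add j0 j1]
        have e : (2:ℝ) ^ (-K) * 2 ^ D * δ = 1 := by
          rw [mul_assoc, mul_comm _ δ]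
          push_cast at hδN
          rw [hδN, zpow_neg]; field_simp
        have hp : (0:ℝ) < 2 ^ (-K) * 2 ^ D := by positivity
        calc _ ≤ 2 ^ (-K) * (640 * 2 ^ D * (δ * (∫ p in quad, |F0 p| ^ 3) +
              δ * (∫ p in quad, |F1 p| ^ 3) + δ * ∫ p in quad, |F2 p| ^ 3)) := by gcongr
          _ = 640 * (2 ^ (-K) * 2 ^ D * δ) * ((∫ p in quad, |F0 p| ^ 3) +
              (∫ p in quad, |F1 p| ^ 3) + ∫ p in quad, |F2 p| ^ 3) := by ring
          _ = _ := by rw [e, mul_one]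

lemma homog {T C a0 a1 a2 : ℝ} (h0 : 0 ≤ a0) (h1 : 0 ≤ a1) (h2 : 0 ≤ a2) (hC : 0 ≤ C)
    (h : ∀ l0 l1 l2 : ℝ, 0 < l0 → 0 < l1 → 0 < l2 →
      l0 * l1 * l2 * T ≤ C * ((l0 * a0) ^ 3 + (l1 * a1) ^ 3 + (l2 * a2) ^ 3)) :
    T ≤ 3 * C * (a0 * a1 * a2) := by
  have key : ∀ η : ℝ, 0 < η → T ≤ 3 * C * ((a0 + η) * (a1 + η) * (a2 + η)) := by
    intro η hη
    have b : ∀ a : ℝ, 0 ≤ a → ((a + η)⁻¹ * a) ^ 3 ≤ 1 := by
      intro a ha
      refine pow_le_one₀ (by positivity) ?_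
      rw [inv_mul_le_iff₀ (by positivity)]; linarith
    have := h (a0 + η)⁻¹ (a1 + η)⁻¹ (a2 + η)⁻¹ (by positivity) (by positivity) (by positivity)
    have h3 : C * (((a0 + η)⁻¹ * a0) ^ 3 + ((a1 + η)⁻¹ * a1) ^ 3 + ((a2 + η)⁻¹ * a2) ^ 3)
        ≤ C * 3 := mul_le_mul_of_nonneg_left (by linarith [b a0 h0, b a1 h1, b a2 h2]) hC
    have h4 := this.trans h3
    rw [← mul_inv, ← mul_inv, inv_mul_le_iff₀ (by positivity)] at h4
    linarith
  have hc : Continuous fun η : ℝ => 3 * C * ((a0 + η) * (a1 + η) * (a2 + η)) := by fun_prop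
  have ht := (hc.tendsto 0).mono_left (nhdsWithin_le_nhds (s := Ioi 0))
  simp only [add_zero] at ht
  exact ge_of_tendsto ht (eventually_nhdsWithin_of_forall fun η hη => key η hη)

lemma mul_bound (K : ℤ) (D : ℕ) {F0 F1 F2 : ℝ × ℝ → ℝ} (h0 : Admissible F0)
    (h1 : Admissible F1) (h2 : Admissible F2) :
    ∑ d ∈ Finset.range D, ∑ a ∈ Finset.range (2 ^ d), ∑ b ∈ Finset.range (2 ^ d),
      |formL (K - d) (a, b, a ^^^ b) F0 F1 F2| ≤
    3 * 640 * (normL3 F0 * normL3 F1 * normL3 F2) := by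
  refine homog ENNReal.toReal_nonneg ENNReal.toReal_nonneg ENNReal.toReal_nonneg (by norm_num) ?_
  intro l0 l1 l2 p0 p1 p2
  have := add_bound K D (h0.smul l0) (h1.smul l1) (h2.smul l2)
  have e1 : ∀ (k : ℤ) (I : ℕ × ℕ × ℕ), |formL k I (fun p => l0 * F0 p) (fun p => l1 * F1 p)
      (fun p => l2 * F2 p)| = l0 * l1 * l2 * |formL k I F0 F1 F2| := by
    intro k I
    rw [← abs_of_pos (show 0 < l0 * l1 * l2 by positivity), ← abs_mul]
    congr 1
    unfold formL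
    rw [mul_left_comm, ← integral_const_mul (l0 * l1 * l2)]
    congr 2
    ext x; ring
  have e2 : ∀ {F : ℝ × ℝ → ℝ}, Admissible F → ∀ l : ℝ, 0 < l →
      ∫ p in quad, |l * F p| ^ 3 = (l * normL3 F) ^ 3 := by
    intro F hF l hl
    rw [mul_pow, hF.norm_cube, ← integral_const_mul]
    congr 1; ext p; rw [abs_mul, abs_of_pos hl, mul_pow]
  simp only [e1, ← Finset.mul_sum] at this
  rw [e2 h0 l0 p0, e2 h1 l1 p1, e2 h2 l2 p2] at this
  exact this

def tripleEquiv : ℕ × ℕ ≃ Triple where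
  toFun p := ⟨(p.1, p.2, p.1 ^^^ p.2), by simp⟩
  invFun I := (I.1.1, I.1.2.1)
  left_inv _ := rfl
  right_inv I := by
    obtain ⟨⟨a, b, c⟩, h⟩ := I
    have : a ^^^ b = c := Nat.xor_eq_zero_iff.1 h
    subst this; rfl

lemma vanish {F0 : ℝ × ℝ → ℝ} (F1 F2 : ℝ × ℝ → ℝ) {K : ℤ}
    (hK : ∀ p ∈ quad, (2:ℝ) ^ K ≤ p.1 ∨ (2:ℝ) ^ K ≤ p.2 → F0 p = 0) (d : ℕ) (p : ℕ × ℕ)
    (hp : p ∉ Finset.range (2 ^ d) ×ˢ Finset.range (2 ^ d)) :
    formL (K - d) (tripleEquiv p).1 F0 F1 F2 = 0 := by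
  have aux : ∀ (a : ℕ) (x : ℝ), x ∈ dyad (K - d) a → 0 ≤ x ∧ (2 ^ d ≤ a → (2:ℝ) ^ K ≤ x) := by
    intro a x hx
    refine ⟨le_trans (by positivity) hx.1, fun ha => le_trans ?_ hx.1⟩
    have : (2:ℝ) ^ d ≤ a := by exact_mod_cast ha
    calc (2:ℝ) ^ K = 2 ^ (K - d) * 2 ^ d := by
          rw [zpow_sub₀ (by norm_num), zpow_natCast]; field_simp
      _ ≤ _ := by gcongr
  unfold formL
  rw [setIntegral_eq_zero_of_forall_eq_zero, mul_zero]
  intro x hx
  have a0 := aux _ _ hx.1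
  have a1 := aux _ _ hx.2.1
  rw [hK (x.1, x.2.1) ⟨a0.1, a1.1⟩, zero_mul, zero_mul, zero_mul]
  simp only [Finset.mem_product, Finset.mem_range, not_and_or, not_lt] at hp
  exact hp.imp a0.2 a1.2

lemma exists_K {F : ℝ × ℝ → ℝ} (h : Admissible F) (k0 : ℤ) :
    ∃ K : ℤ, k0 ≤ K ∧ ∀ p ∈ quad, (2:ℝ) ^ K ≤ p.1 ∨ (2:ℝ) ^ K ≤ p.2 → F p = 0 := by
  obtain ⟨-, -, S, hS, hS'⟩ := h
  obtain ⟨R, hR⟩ := hS.isBounded.exists_norm_le
  obtain ⟨m, hm⟩ := pow_unbounded_of_one_lt R (by norm_num : (1:ℝ) < 2)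
  refine ⟨max k0 m, le_max_left _ _, fun p hp h => hS' p hp fun hpS => ?_⟩
  have h1 : (2:ℝ) ^ m ≤ 2 ^ (max k0 m) := by
    rw [← zpow_natCast]; exact zpow_le_zpow_right₀ (by norm_num) (le_max_right _ _)
  have h2 := hR p hpS
  have h3 := (le_abs_self _).trans (norm_fst_le p)
  have h4 := (le_abs_self _).trans (norm_snd_le p)
  rcases h with h | h <;> linarith

theorem main : ∃ C : ℝ, ∀ (S : Finset ℤ) (ε : ℤ → ℝ) (F0 F1 F2 : ℝ × ℝ → ℝ),
    (∀ k, |ε k| ≤ 1) → Admissible F0 → Admissible F1 → Admissible F2 →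
    (∀ k, Summable fun I : Triple => formL k I.1 F0 F1 F2) ∧
      |formLam S ε F0 F1 F2| ≤ C * (normL3 F0 * normL3 F1 * normL3 F2) := by
  refine ⟨3 * 640, fun S ε F0 F1 F2 hε h0 h1 h2 => ⟨fun k => ?_, ?_⟩⟩
  · obtain ⟨K, hk, hK⟩ := exists_K h0 k
    obtain ⟨d, rfl⟩ : ∃ d : ℕ, k = K - d := ⟨(K - k).toNat, by omega⟩
    rw [← tripleEquiv.summable_iff]
    exact summable_of_ne_finset_zero (vanish F1 F2 hK d)
  · obtain ⟨k0, hk0⟩ := S.bddAbove
    obtain ⟨k1, hk1⟩ := S.bddBelow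
    obtain ⟨K, hk, hK⟩ := exists_K h0 k0
    refine le_trans ?_ (mul_bound K (K - k1 + 1).toNat h0 h1 h2)
    set W : ℤ → ℝ := fun k => |∑' I : Triple, formL k I.1 F0 F1 F2| with hW
    have s1 : |formLam S ε F0 F1 F2| ≤ ∑ k ∈ S, W k := by
      refine (Finset.abs_sum_le_sum_abs _ _).trans (Finset.sum_le_sum fun k _ => ?_)
      rw [abs_mul]
      exact mul_le_of_le_one_left (abs_nonneg _) (hε k)
    have s2 : ∑ k ∈ S, W k ≤
        ∑ k ∈ (Finset.range (K - k1 + 1).toNat).image (fun d : ℕ => K - d), W k := by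
      refine Finset.sum_le_sum_of_subset_of_nonneg (fun k hkS => ?_) fun _ _ _ => abs_nonneg _
      have a := hk0 hkS
      have b := hk1 hkS
      exact Finset.mem_image.2 ⟨(K - k).toNat, Finset.mem_range.2 (by omega), by omega⟩
    rw [Finset.sum_image (fun a _ b _ h => by simpa using h)] at s2
    refine s1.trans (s2.trans (Finset.sum_le_sum fun d _ => ?_))
    simp only [hW]
    rw [← tripleEquiv.tsum_eq, tsum_eq_sum (vanish F1 F2 hK d), Finset.sum_product]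
    refine (Finset.abs_sum_le_sum_abs _ _).trans (Finset.sum_le_sum fun a _ => ?_)
    exact Finset.abs_sum_le_sum_abs _ _

end Vale.Agent.P075
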