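import Mathlib

open Matrix

namespace Vale.Agent.P075

variable {n m : Type*} [Fintype n] [DecidableEq n] [Fintype m] [DecidableEq m]

noncomputable def ell (S : Matrix n n ℝ) : ℝ := S.trace - Real.log (1 + S).det

noncomputable def G (S : Matrix n n ℝ) : Matrix n n ℝ := 1 - (1 + S)⁻¹

noncomputable def en (P Q D : Matrix n n ℝ) : ℝ := (G P * D * G Q * D).trace

omit [Fintype n] [DecidableEq n] in
lemma psd_symm {A : Matrix n n ℝ} (hA : A.PosSemidef) : Aᵀ = A := by
  have := hA.1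
  rwa [IsHermitian, conjTranspose_eq_transpose_of_trivial] at this

omit [Fintype n] [DecidableEq n] in
lemma herm_of_symm {A : Matrix n n ℝ} (hA : Aᵀ = A) : A.IsHermitian := by
  rwa [IsHermitian, conjTranspose_eq_transpose_of_trivial]

omit [DecidableEq n] [DecidableEq m] in
lemma psd_conj {A : Matrix n n ℝ} (hA : A.PosSemidef) (B : Matrix n m ℝ) :
    (Bᵀ * A * B).PosSemidef := by
  have := hA.conjTranspose_mul_mul_same B
  rwa [conjTranspose_eq_transpose_of_trivial] at this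

omit [DecidableEq n] [DecidableEq m] in
lemma psd_tmul (B : Matrix n m ℝ) : (Bᵀ * B).PosSemidef := by
  have := posSemidef_conjTranspose_mul_self B
  rwa [conjTranspose_eq_transpose_of_trivial] at this

omit [DecidableEq n] [DecidableEq m] in
lemma psd_mult (B : Matrix n m ℝ) : (B * Bᵀ).PosSemidef := by
  have := posSemidef_self_mul_conjTranspose B
  rwa [conjTranspose_eq_transpose_of_trivial] at this

lemma spec {A : Matrix n n ℝ} (hA : A.PosSemidef) :
    ∃ (U : Matrix n n ℝ) (d : n → ℝ), (∀ i, 0 ≤ d i) ∧ Uᵀ * U = 1 ∧ U * Uᵀ = 1 ∧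
      A = U * diagonal d * Uᵀ := by
  refine ⟨hA.1.eigenvectorUnitary, hA.1.eigenvalues, hA.eigenvalues_nonneg, ?_, ?_, ?_⟩
  · have := (hA.1.eigenvectorUnitary).2.1
    rwa [star_eq_conjTranspose, conjTranspose_eq_transpose_of_trivial] at this
  · have := (hA.1.eigenvectorUnitary).2.2
    rwa [star_eq_conjTranspose, conjTranspose_eq_transpose_of_trivial] at this
  · have := hA.1.spectral_theorem
    rw [Unitary.conjStarAlgAut_apply, star_eq_conjTranspose,
      conjTranspose_eq_transpose_of_trivial] at this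
    simpa using this

lemma exists_factor {A : Matrix n n ℝ} (hA : A.PosSemidef) :
    ∃ C : Matrix n n ℝ, A = C * Cᵀ := by
  obtain ⟨U, d, hd, -, -, h⟩ := spec hA
  refine ⟨U * diagonal (fun i => Real.sqrt (d i)), ?_⟩
  rw [transpose_mul, diagonal_transpose, h]
  have : diagonal d = diagonal (fun i => Real.sqrt (d i)) * diagonal (fun i => Real.sqrt (d i)) := by
    rw [diagonal_mul_diagonal]; congr 1; ext i; exact (Real.mul_self_sqrt (hd i)).symm
  rw [this]; simp only [Matrix.mul_assoc]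

lemma trace_mul_nonneg {A B : Matrix n n ℝ} (hA : A.PosSemidef) (hB : B.PosSemidef) :
    0 ≤ (A * B).trace := by
  obtain ⟨C, rfl⟩ := exists_factor hA
  rw [Matrix.mul_assoc, trace_mul_comm, ]
  exact (psd_conj hB C).trace_nonneg

lemma log_det_le {K : Matrix n n ℝ} (hK : K.PosSemidef) (hd : K.det ≠ 0) :
    Real.log K.det ≤ (K - 1).trace := by
  have hK' : K.PosDef := hK.posDef_iff_det_ne_zero.2 hd
  rw [trace_sub, hK'.1.det_eq_prod_eigenvalues, hK'.1.trace_eq_sum_eigenvalues, trace_one]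
  simp only [RCLike.ofReal_real_eq_id, id_eq]
  rw [Real.log_prod (fun i _ => (hK'.eigenvalues_pos i).ne')]
  have : (Fintype.card n : ℝ) = ∑ _i : n, (1:ℝ) := by simp
  rw [this, ← Finset.sum_sub_distrib]
  exact Finset.sum_le_sum fun i _ => Real.log_le_sub_one_of_pos (hK'.eigenvalues_pos i)

omit [Fintype n] in
lemma one_add_posDef {S : Matrix n n ℝ} (hS : S.PosSemidef) : (1 + S).PosDef :=
  PosDef.one.add_posSemidef hS

lemma ell_nonneg {S : Matrix n n ℝ} (hS : S.PosSemidef) : 0 ≤ ell S := by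
  have h := log_det_le (one_add_posDef hS).posSemidef (one_add_posDef hS).det_pos.ne'
  rw [add_sub_cancel_left] at h
  unfold ell; linarith

lemma one_add_sum_le_prod {ι : Type*} (s : Finset ι) (d : ι → ℝ) (hd : ∀ i, 0 ≤ d i) :
    1 + ∑ i ∈ s, d i ≤ ∏ i ∈ s, (1 + d i) := by
  classical
  induction s using Finset.induction_on with
  | empty => simp
  | insert a s ha ih =>
    rw [Finset.sum_insert ha, Finset.prod_insert ha]
    have h1 : 0 ≤ ∑ i ∈ s, d i := Finset.sum_nonneg fun i _ => hd i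
    nlinarith [hd a, mul_nonneg (hd a) h1]

lemma ell_le {S : Matrix n n ℝ} (hS : S.PosSemidef) :
    ell S ≤ S.trace ^ 2 / (1 + S.trace) := by
  obtain ⟨U, d, hd, h1, h2, h⟩ := spec hS
  have htr : S.trace = ∑ i, d i := by
    rw [h, trace_mul_comm, ← Matrix.mul_assoc, h1, Matrix.one_mul, trace_diagonal]
  have hdet : (1 + S).det = ∏ i, (1 + d i) := by
    have : 1 + S = U * diagonal (fun i => 1 + d i) * Uᵀ := by
      have e : diagonal (fun i => 1 + d i) = 1 + diagonal d := by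
        rw [← diagonal_one, diagonal_add]
      rw [e, Matrix.mul_add, Matrix.add_mul, Matrix.mul_one, h2, ← h]
    rw [this, det_mul_comm, ← Matrix.mul_assoc, h1, Matrix.one_mul, det_diagonal]
  have ht : 0 ≤ S.trace := hS.trace_nonneg
  have h3 : 1 + S.trace ≤ (1 + S).det := by
    rw [htr, hdet]; exact one_add_sum_le_prod _ _ hd
  have h4 : Real.log (1 + S.trace) ≤ Real.log (1 + S).det :=
    Real.log_le_log (by linarith) h3
  have h5 : 1 - (1 + S.trace)⁻¹ ≤ Real.log (1 + S.trace) :=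
    Real.one_sub_inv_le_log_of_pos (by linarith)
  have h6 : S.trace ^ 2 / (1 + S.trace) = S.trace - (1 - (1 + S.trace)⁻¹) := by
    field_simp; ring
  unfold ell; linarith

lemma ell_convex {M O : Matrix n n ℝ} (h1 : (M + O).PosSemidef) (h2 : (M - O).PosSemidef) :
    2 * ell M + ((1 + M)⁻¹ * O * (1 + M)⁻¹ * O).trace ≤ ell (M + O) + ell (M - O) := by
  have hM : M.PosSemidef := by
    have := (h1.add h2).smul (a := (1/2 : ℝ)) (by norm_num)
    have e : (1/2 : ℝ) • (M + O + (M - O)) = M := by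
      ext i j; simp; ring
    rwa [e] at this
  have hO : Oᵀ = O := by
    have a := psd_symm h1
    have b := psd_symm hM
    rw [transpose_add, b] at a
    exact add_left_cancel a
  have hW := one_add_posDef hM
  obtain ⟨C, hC⟩ := exists_factor hW.inv.posSemidef
  have hWu : IsUnit (1 + M).det := (isUnit_iff_ne_zero).2 hW.det_pos.ne'
  have hCW : Cᵀ * (1 + M) * C = 1 := by
    have : C * (Cᵀ * (1 + M)) = 1 := by
      rw [← Matrix.mul_assoc, ← hC, nonsing_inv_mul _ hWu]
    exact mul_eq_one_comm.1 this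
  set N := Cᵀ * O * C with hN
  have hNs : Nᵀ = N := by
    rw [hN, transpose_mul, transpose_mul, transpose_transpose, hO, Matrix.mul_assoc]
  have e1 : 1 + N = Cᵀ * (1 + (M + O)) * C := by
    rw [← add_assoc, Matrix.mul_add, Matrix.add_mul, hCW]
  have e2 : 1 - N = Cᵀ * (1 + (M - O)) * C := by
    rw [← add_sub_assoc, Matrix.mul_sub, Matrix.sub_mul, hCW]
  have p1 : (1 + N).PosSemidef := e1 ▸ psd_conj (one_add_posDef h1).posSemidef C
  have p2 : (1 - N).PosSemidef := e2 ▸ psd_conj (one_add_posDef h2).posSemidef C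
  have hK : (1 - N * N).PosSemidef := by
    have a := psd_conj p2 (1 + N)
    have b := psd_conj p1 (1 - N)
    have := (a.add b).smul (a := (1/2 : ℝ)) (by norm_num)
    have e : (1/2 : ℝ) • ((1 + N)ᵀ * (1 - N) * (1 + N) + (1 - N)ᵀ * (1 + N) * (1 - N))
        = 1 - N * N := by
      rw [transpose_add, transpose_sub, transpose_one, hNs]
      have : (1 + N) * (1 - N) * (1 + N) + (1 - N) * (1 + N) * (1 - N)
          = (2 : ℝ) • (1 - N * N) := by
        rw [two_smul]; noncomm_ring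
      rw [this, smul_smul]; norm_num
    rwa [e] at this
  have hc : C.det * (1 + M).det * C.det = 1 := by
    have := congrArg det hCW
    rwa [det_mul, det_mul, det_transpose, det_one] at this
  have d1 : (1 + N).det = C.det * (1 + (M + O)).det * C.det := by
    rw [e1, det_mul, det_mul, det_transpose]
  have d2 : (1 - N).det = C.det * (1 + (M - O)).det * C.det := by
    rw [e2, det_mul, det_mul, det_transpose]
  have q0 := hW.det_pos
  have q1 := (one_add_posDef h1).det_pos
  have q2 := (one_add_posDef h2).det_pos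
  have dK : (1 - N * N).det = (1 + (M + O)).det * (1 + (M - O)).det / (1 + M).det ^ 2 := by
    have : 1 - N * N = (1 + N) * (1 - N) := by noncomm_ring
    rw [this, det_mul, d1, d2, eq_div_iff (by positivity)]
    have : C.det * (1 + (M + O)).det * C.det * (C.det * (1 + (M - O)).det * C.det)
        * (1 + M).det ^ 2 = (C.det * (1 + M).det * C.det) ^ 2
          * ((1 + (M + O)).det * (1 + (M - O)).det) := by ring
    rw [this, hc]; ring
  have key := log_det_le hK (by rw [dK]; positivity)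
  rw [dK, Real.log_div (by positivity) (by positivity), Real.log_mul q1.ne' q2.ne',
    Real.log_pow] at key
  have t : (1 - N * N - 1).trace = - ((1 + M)⁻¹ * O * (1 + M)⁻¹ * O).trace := by
    rw [sub_sub_cancel_left, trace_neg, hC, hN]
    congr 1
    simp only [Matrix.mul_assoc]
    rw [trace_mul_comm Cᵀ]
    simp only [Matrix.mul_assoc]
    rw [trace_mul_comm O]
    simp only [Matrix.mul_assoc]
  rw [t] at key
  unfold ell
  rw [trace_add, trace_sub]
  push_cast at key
  linarith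

lemma ell_add_le {A B : Matrix n n ℝ} (hA : A.PosSemidef) (hB : B.PosSemidef) {c : ℝ}
    (hc : 0 ≤ c) :
    2 * ell (c • (A + B)) ≤ ell ((2 * c) • A) + ell ((2 * c) • B) := by
  have e1 : c • (A + B) + c • (A - B) = (2 * c) • A := by ext i j; simp; ring
  have e2 : c • (A + B) - c • (A - B) = (2 * c) • B := by ext i j; simp; ring
  have := ell_convex (M := c • (A + B)) (O := c • (A - B))
    (e1 ▸ hA.smul (by positivity)) (e2 ▸ hB.smul (by positivity))
  rw [e1, e2] at this
  have hR := (one_add_posDef ((hA.add hB).smul hc)).inv.posSemidef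
  have hO : (c • (A - B))ᵀ = c • (A - B) := by
    rw [transpose_smul, transpose_sub, psd_symm hA, psd_symm hB]
  have h2 := trace_mul_nonneg hR (psd_conj hR (c • (A - B)))
  rw [hO] at h2
  simp only [← Matrix.mul_assoc] at h2
  linarith

lemma ell_comm (c : ℝ) (T : Matrix m n ℝ) : ell (c • (Tᵀ * T)) = ell (c • (T * Tᵀ)) := by
  unfold ell
  rw [trace_smul, trace_smul, trace_mul_comm, ← Matrix.smul_mul, det_one_add_mul_comm,
    Matrix.mul_smul]

lemma G_push {c : ℝ} (hc : 0 ≤ c) (T : Matrix m n ℝ) :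
    c • (Tᵀ * (1 + c • (T * Tᵀ))⁻¹ * T) = G (c • (Tᵀ * T)) := by
  have h1 := one_add_posDef ((psd_mult T).smul hc)
  have h2 := one_add_posDef ((psd_tmul T).smul hc)
  have u1 : IsUnit (1 + c • (T * Tᵀ)).det := (isUnit_iff_ne_zero).2 h1.det_pos.ne'
  have u2 : IsUnit (1 + c • (Tᵀ * T)).det := (isUnit_iff_ne_zero).2 h2.det_pos.ne'
  have e : (1 + c • (T * Tᵀ))⁻¹ * T = T * (1 + c • (Tᵀ * T))⁻¹ := by
    have e0 : T * (1 + c • (Tᵀ * T)) = (1 + c • (T * Tᵀ)) * T := by
      rw [Matrix.mul_add, Matrix.add_mul, Matrix.mul_smul, Matrix.smul_mul, Matrix.mul_assoc]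
      simp
    calc (1 + c • (T * Tᵀ))⁻¹ * T
        = (1 + c • (T * Tᵀ))⁻¹ * (T * (1 + c • (Tᵀ * T))) * (1 + c • (Tᵀ * T))⁻¹ := by
          rw [Matrix.mul_assoc, Matrix.mul_assoc, mul_nonsing_inv _ u2, Matrix.mul_one]
      _ = T * (1 + c • (Tᵀ * T))⁻¹ := by
          rw [e0, ← Matrix.mul_assoc, nonsing_inv_mul _ u1, Matrix.one_mul]
  rw [Matrix.mul_assoc, e, ← Matrix.mul_assoc, ← Matrix.smul_mul, G]
  have := mul_nonsing_inv _ u2
  rw [Matrix.add_mul, Matrix.one_mul] at this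
  exact eq_sub_of_add_eq' this

lemma G_mono {A B : Matrix n n ℝ} (hA : A.PosSemidef) (hB : (B - A).PosSemidef) :
    (G B - G A).PosSemidef := by
  have hB' : B.PosSemidef := by simpa using hB.add hA
  have h1 := one_add_posDef hA
  have h2 := one_add_posDef hB'
  have u1 : IsUnit (1 + A).det := (isUnit_iff_ne_zero).2 h1.det_pos.ne'
  have u2 : IsUnit (1 + B).det := (isUnit_iff_ne_zero).2 h2.det_pos.ne'
  set a := (1 + A)⁻¹ with ha
  set b := (1 + B)⁻¹ with hb
  have a1 : a * (1 + A) = 1 := nonsing_inv_mul _ u1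
  have a2 : (1 + A) * a = 1 := mul_nonsing_inv _ u1
  have b1 : b * (1 + B) = 1 := nonsing_inv_mul _ u2
  have b2 : (1 + B) * b = 1 := mul_nonsing_inv _ u2
  have hbs : bᵀ = b := psd_symm h2.inv.posSemidef
  have p1 := psd_conj hB b
  have p2 := psd_conj h1.inv.posSemidef ((B - A) * b)
  rw [transpose_mul, psd_symm hB, hbs] at p2
  rw [hbs] at p1
  have e1 : b * (B - A) = 1 - b * (1 + A) := by
    calc b * (B - A) = b * (1 + B) - b * (1 + A) := by noncomm_ring
      _ = _ := by rw [b1]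
  have e2 : (B - A) * b = 1 - (1 + A) * b := by
    calc (B - A) * b = (1 + B) * b - (1 + A) * b := by noncomm_ring
      _ = _ := by rw [b2]
  have e : G B - G A = b * (B - A) * b + b * (B - A) * a * ((B - A) * b) := by
    rw [e1, e2]
    have : (1 - b * (1 + A)) * a = a - b := by
      rw [Matrix.sub_mul, Matrix.mul_assoc, a2]; simp
    rw [this]
    have h3 : (a - b) * (1 - (1 + A) * b) = a - b - b + b * (1 + A) * b := by
      rw [Matrix.mul_sub, Matrix.sub_mul a b ((1 + A) * b), ← Matrix.mul_assoc a, a1]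
      noncomm_ring
    rw [h3]
    unfold G
    rw [← ha, ← hb]
    noncomm_ring
  rw [e]; exact p1.add p2

lemma G_psd {A : Matrix n n ℝ} (hA : A.PosSemidef) : (G A).PosSemidef := by
  have := G_mono (A := 0) (B := A) PosSemidef.zero (by simpa using hA)
  simpa [G] using this

lemma en_nonneg {P Q D : Matrix n n ℝ} (hP : P.PosSemidef) (hQ : Q.PosSemidef) (hD : Dᵀ = D) :
    0 ≤ en P Q D := by
  have := trace_mul_nonneg (G_psd hP) (psd_conj (G_psd hQ) D)
  rw [hD] at this
  simpa only [en, Matrix.mul_assoc] using this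

lemma en_mono {P Q P' Q' D : Matrix n n ℝ} (hP : P.PosSemidef) (hQ : Q.PosSemidef)
    (hP' : (P' - P).PosSemidef) (hQ' : (Q' - Q).PosSemidef) (hD : Dᵀ = D) :
    en P Q D ≤ en P' Q' D := by
  have hP2 : P'.PosSemidef := by simpa using hP'.add hP
  have h1 := trace_mul_nonneg (G_mono hP hP') (psd_conj (G_psd hQ) D)
  have h2 := trace_mul_nonneg (G_psd hP2) (psd_conj (G_mono hQ hQ') D)
  rw [hD] at h1 h2
  rw [Matrix.sub_mul, trace_sub] at h1
  rw [Matrix.mul_sub, Matrix.sub_mul, Matrix.mul_sub, trace_sub] at h2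
  simp only [en, Matrix.mul_assoc] at *
  linarith

lemma col_split {c : ℝ} (hc : 0 ≤ c) (T : Matrix m n ℝ) (Q0 Q1 : Matrix n n ℝ)
    (h0 : Q0 * Q0ᵀ = Q0) (h1 : Q1 * Q1ᵀ = Q1) (hT : T * (Q0 + Q1) = T) :
    2 * ell (c • (Tᵀ * T)) + en (c • (Tᵀ * T)) (c • (Tᵀ * T)) (Q0 - Q1) ≤
      ell ((2 * c) • ((T * Q0)ᵀ * (T * Q0))) + ell ((2 * c) • ((T * Q1)ᵀ * (T * Q1))) := by
  rw [ell_comm c, ell_comm (2 * c), ell_comm (2 * c)]
  have a0 : T * Q0 * (T * Q0)ᵀ = T * Q0 * Tᵀ := by
    rw [transpose_mul, Matrix.mul_assoc T, ← Matrix.mul_assoc Q0, h0, Matrix.mul_assoc]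
  have a1 : T * Q1 * (T * Q1)ᵀ = T * Q1 * Tᵀ := by
    rw [transpose_mul, Matrix.mul_assoc T, ← Matrix.mul_assoc Q1, h1, Matrix.mul_assoc]
  have hM : T * Tᵀ = T * Q0 * Tᵀ + T * Q1 * Tᵀ := by
    rw [← Matrix.add_mul, ← Matrix.mul_add, hT]
  have hO : T * (Q0 - Q1) * Tᵀ = T * Q0 * Tᵀ - T * Q1 * Tᵀ := by
    rw [← Matrix.sub_mul, ← Matrix.mul_sub]
  have e1 : c • (T * Tᵀ) + c • (T * (Q0 - Q1) * Tᵀ) = (2 * c) • (T * Q0 * (T * Q0)ᵀ) := by
    rw [a0, hM, hO]; ext i j; simp; ring
  have e2 : c • (T * Tᵀ) - c • (T * (Q0 - Q1) * Tᵀ) = (2 * c) • (T * Q1 * (T * Q1)ᵀ) := by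
    rw [a1, hM, hO]; ext i j; simp; ring
  have := ell_convex (M := c • (T * Tᵀ)) (O := c • (T * (Q0 - Q1) * Tᵀ))
    (e1 ▸ (psd_mult _).smul (by positivity)) (e2 ▸ (psd_mult _).smul (by positivity))
  rw [e1, e2] at this
  have e3 : en (c • (Tᵀ * T)) (c • (Tᵀ * T)) (Q0 - Q1) =
      ((1 + c • (T * Tᵀ))⁻¹ * (c • (T * (Q0 - Q1) * Tᵀ)) * (1 + c • (T * Tᵀ))⁻¹ *
        (c • (T * (Q0 - Q1) * Tᵀ))).trace := by
    rw [en, ← G_push hc]
    simp only [Matrix.mul_smul, Matrix.smul_mul, trace_smul, Matrix.mul_assoc]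
    rw [trace_mul_comm Tᵀ]
    simp only [Matrix.mul_assoc]
  rw [e3]; exact this

end Vale.Agent.P075
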