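import Vale.Agent.P075.Mat1

open Matrix Filter

namespace Vale.Agent.P075

variable {n : Type*} [Fintype n] [DecidableEq n]

def PI (W : Matrix n n ℝ) (x : n → ℝ) : Prop :=
  ∃ π : n → ℝ, Wᵀ * W = diagonal π ∧ (∀ i, π i ≤ 1) ∧ ∀ i, π i * x i = x i

lemma svd (X : Matrix n n ℝ) : ∃ (U V : Matrix n n ℝ) (x : n → ℝ), (∀ i, 0 ≤ x i) ∧ PI U x ∧
    PI V x ∧ X = U * diagonal x * Vᵀ := by
  obtain ⟨V, d, hd, h1, h2, h⟩ := spec (psd_tmul X)
  have hg : (X * V)ᵀ * (X * V) = diagonal d := by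
    rw [transpose_mul, Matrix.mul_assoc, ← Matrix.mul_assoc Xᵀ, h]
    simp only [← Matrix.mul_assoc]
    rw [h1, Matrix.one_mul, Matrix.mul_assoc, h1, Matrix.mul_one]
  have hg2 : ∀ e : n → ℝ, (X * V * diagonal e)ᵀ * (X * V * diagonal e)
      = diagonal (fun i => e i * d i * e i) := by
    intro e
    rw [transpose_mul, diagonal_transpose, Matrix.mul_assoc, ← Matrix.mul_assoc (X * V)ᵀ, hg,
      diagonal_mul_diagonal, diagonal_mul_diagonal]
    congr 1; ext i; ring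
  refine ⟨X * V * diagonal (fun i => (Real.sqrt (d i))⁻¹), V, fun i => Real.sqrt (d i),
    fun i => Real.sqrt_nonneg _, ⟨_, hg2 _, ?_, ?_⟩, ⟨fun _ => 1, by rw [h1, diagonal_one],
      fun _ => le_rfl, fun _ => one_mul _⟩, ?_⟩
  · intro i
    by_cases h0 : Real.sqrt (d i) = 0
    · simp [h0]
    · have := Real.mul_self_sqrt (hd i)
      apply le_of_eq
      field_simp
      nlinarith
  · intro i
    by_cases h0 : Real.sqrt (d i) = 0
    · simp [h0]
    · have := Real.mul_self_sqrt (hd i)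
      field_simp
      nlinarith
  · have hz : X * V * diagonal (fun i => 1 - (Real.sqrt (d i))⁻¹ * Real.sqrt (d i)) = 0 := by
      rw [← conjTranspose_mul_self_eq_zero, conjTranspose_eq_transpose_of_trivial, hg2,
        ← diagonal_zero]
      congr 1; ext i
      by_cases h0 : Real.sqrt (d i) = 0
      · have : d i = 0 := by
          have := Real.mul_self_sqrt (hd i); rw [h0] at this; linarith
        simp [this]
      · rw [inv_mul_cancel₀ h0]; simp
    have e : diagonal (fun i => 1 - (Real.sqrt (d i))⁻¹ * Real.sqrt (d i)) =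
        1 - diagonal (fun i => (Real.sqrt (d i))⁻¹) * diagonal (fun i => Real.sqrt (d i)) := by
      rw [diagonal_mul_diagonal, ← diagonal_one, diagonal_sub]
    rw [e, Matrix.mul_sub, Matrix.mul_one, sub_eq_zero] at hz
    rw [Matrix.mul_assoc (X * V), ← hz, Matrix.mul_assoc, h2, Matrix.mul_one]

noncomputable def g (c x : ℝ) : ℝ := c * x ^ 2 / (1 + c * x ^ 2)

lemma G_diag {W : Matrix n n ℝ} {x : n → ℝ} (h : PI W x) {c : ℝ} (hc : 0 ≤ c) :
    G (c • (W * diagonal (fun i => x i ^ 2) * Wᵀ)) = W * diagonal (fun i => g c (x i)) * Wᵀ := by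
  obtain ⟨π, h1, -, h3⟩ := h
  have : (1 + c • (W * diagonal (fun i => x i ^ 2) * Wᵀ)) *
      (1 - W * diagonal (fun i => g c (x i)) * Wᵀ) = 1 := by
    have e1 : c • (W * diagonal (fun i => x i ^ 2) * Wᵀ)
        = W * diagonal (fun i => c * x i ^ 2) * Wᵀ := by
      rw [← Matrix.smul_mul, ← Matrix.mul_smul, ← diagonal_smul]; rfl
    have e2 : W * diagonal (fun i => c * x i ^ 2) * Wᵀ * (W * diagonal (fun i => g c (x i)) * Wᵀ)
        = W * diagonal (fun i => c * x i ^ 2 - g c (x i)) * Wᵀ := by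
      simp only [Matrix.mul_assoc]
      rw [← Matrix.mul_assoc Wᵀ, h1]
      simp only [← Matrix.mul_assoc (diagonal _), diagonal_mul_diagonal]
      congr 3; ext i
      have hp : 0 < 1 + c * x i ^ 2 := by positivity
      have h4 : x i ^ 2 * π i = x i ^ 2 := by
        calc x i ^ 2 * π i = x i * (π i * x i) := by ring
          _ = _ := by rw [h3]; ring
      rw [← mul_assoc, mul_assoc c, h4]
      unfold g; field_simp; ring
    rw [e1, Matrix.mul_sub, Matrix.mul_one, Matrix.add_mul, Matrix.one_mul, e2, ← diagonal_sub,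
      Matrix.mul_sub, Matrix.sub_mul]
    abel
  rw [G, inv_eq_right_inv this]; abel

def Contr (b : Matrix n n ℝ) : Prop := ∀ s t : n → ℝ, |s ⬝ᵥ b *ᵥ t| ≤ (s ⬝ᵥ s + t ⬝ᵥ t) / 2

lemma PI.norm_le {W : Matrix n n ℝ} {x : n → ℝ} (h : PI W x) (s : n → ℝ) :
    (W *ᵥ s) ⬝ᵥ (W *ᵥ s) ≤ s ⬝ᵥ s := by
  obtain ⟨π, h1, h2, -⟩ := h
  have : (W *ᵥ s) ⬝ᵥ (W *ᵥ s) = s ⬝ᵥ (diagonal π *ᵥ s) := by
    rw [← h1, ← mulVec_mulVec, dotProduct_mulVec s Wᵀ, vecMul_transpose]
  rw [this]
  refine Finset.sum_le_sum fun i _ => ?_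
  rw [mulVec_diagonal]
  nlinarith [h2 i, mul_self_nonneg (s i)]

lemma contr_of {V U : Matrix n n ℝ} {x y δ : n → ℝ} (hV : PI V x) (hU : PI U y)
    (hδ : ∀ i, |δ i| ≤ 1) : Contr (Vᵀ * diagonal δ * U) := by
  intro s t
  have : s ⬝ᵥ (Vᵀ * diagonal δ * U) *ᵥ t = (V *ᵥ s) ⬝ᵥ (diagonal δ *ᵥ (U *ᵥ t)) := by
    rw [← mulVec_mulVec, ← mulVec_mulVec, dotProduct_mulVec s Vᵀ, vecMul_transpose]
  rw [this]
  have h1 := hV.norm_le s
  have h2 := hU.norm_le t
  refine le_trans ?_ (show ((V *ᵥ s) ⬝ᵥ (V *ᵥ s) + (U *ᵥ t) ⬝ᵥ (U *ᵥ t)) / 2 ≤ _ by linarith)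
  generalize V *ᵥ s = a
  generalize U *ᵥ t = b
  unfold dotProduct
  rw [← Finset.sum_add_distrib, Finset.sum_div]
  refine (Finset.abs_sum_le_sum_abs _ _).trans (Finset.sum_le_sum fun i _ => ?_)
  rw [mulVec_diagonal, abs_mul, abs_mul]
  have h3 : |a i| * (|δ i| * |b i|) ≤ |a i| * |b i| := by
    have := hδ i
    have h4 : |δ i| * |b i| ≤ |b i| := by nlinarith [abs_nonneg (b i)]
    exact mul_le_mul_of_nonneg_left h4 (abs_nonneg _)
  nlinarith [sq_nonneg (|a i| - |b i|), abs_mul_abs_self (a i), abs_mul_abs_self (b i)]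

noncomputable def E (x y : n → ℝ) (a : Matrix n n ℝ) : ℝ :=
  ∑ i, ∑ j, x i * y j * min (x i) (y j) * a i j ^ 2

omit [DecidableEq n] in
lemma region {x y z : n → ℝ} (hx : ∀ i, 0 ≤ x i) (hy : ∀ i, 0 ≤ y i) (hz : ∀ i, 0 ≤ z i)
    (a b c : Matrix n n ℝ) (hb : Contr b) (p q : n → n → Prop)
    [∀ i j, Decidable (p i j)] [∀ i j, Decidable (q i j)]
    (hp : ∀ i j, p i j → y j ≤ x i) (hq : ∀ l i, q l i → z l ≤ x i) :
    |∑ i, ∑ j, ∑ l, if p i j ∧ q l i then x i * a i j * y j * b j l * z l * c l i else 0| ≤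
      (E x y a + E z x c) / 2 := by
  unfold E
  rw [Finset.sum_comm (f := fun l i => z l * x i * min (z l) (x i) * c l i ^ 2),
    ← Finset.sum_add_distrib, Finset.sum_div]
  refine (Finset.abs_sum_le_sum_abs _ _).trans (Finset.sum_le_sum fun i _ => ?_)
  have h := hb (fun j => if p i j then a i j * y j else 0) (fun l => if q l i then z l * c l i else 0)
  have e : (∑ j, ∑ l, if p i j ∧ q l i then x i * a i j * y j * b j l * z l * c l i else 0) =
      x i * ((fun j => if p i j then a i j * y j else 0) ⬝ᵥ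
        b *ᵥ (fun l => if q l i then z l * c l i else 0)) := by
    simp only [dotProduct, mulVec, Finset.mul_sum]
    refine Finset.sum_congr rfl fun j _ => Finset.sum_congr rfl fun l _ => ?_
    by_cases h1 : p i j <;> by_cases h2 : q l i <;> simp [h1, h2]
    ring
  rw [e, abs_mul, abs_of_nonneg (hx i)]
  refine (mul_le_mul_of_nonneg_left h (hx i)).trans ?_
  rw [← mul_div_assoc, mul_add]
  simp only [dotProduct, Finset.mul_sum]
  refine div_le_div_of_nonneg_right (add_le_add (Finset.sum_le_sum fun j _ => ?_)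
    (Finset.sum_le_sum fun l _ => ?_)) (by norm_num)
  · by_cases h1 : p i j
    · rw [if_pos h1, min_eq_right (hp i j h1)]; apply le_of_eq; ring
    · rw [if_neg h1, mul_zero, mul_zero]
      have := hx i; have := hy j
      positivity
  · by_cases h1 : q l i
    · rw [if_pos h1, min_eq_left (hq l i h1)]; apply le_of_eq; ring
    · rw [if_neg h1, mul_zero, mul_zero]
      have := hx i; have := hz l
      positivity

omit [DecidableEq n] in
lemma tri {x y z : n → ℝ} (hx : ∀ i, 0 ≤ x i) (hy : ∀ i, 0 ≤ y i) (hz : ∀ i, 0 ≤ z i)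
    (a b c : Matrix n n ℝ) (ha : Contr a) (hb : Contr b) (hc : Contr c) :
    |∑ i, ∑ j, ∑ l, x i * a i j * y j * b j l * z l * c l i| ≤ E x y a + E y z b + E z x c := by
  classical
  have h1 := region hx hy hz a b c hb (fun i j => y j ≤ x i) (fun l i => z l ≤ x i)
    (fun _ _ h => h) (fun _ _ h => h)
  have h2 := region hy hz hx b c a hc (fun j l => z l ≤ y j) (fun i j => x i < y j)
    (fun _ _ h => h) (fun _ _ h => h.le)
  have h3 := region hz hx hy c a b ha (fun l i => x i < z l) (fun j l => y j < z l)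
    (fun _ _ h => h.le) (fun _ _ h => h.le)
  have e2 : (∑ j, ∑ l, ∑ i, if z l ≤ y j ∧ x i < y j then y j * b j l * z l * c l i * x i * a i j
      else 0) = ∑ i, ∑ j, ∑ l, if z l ≤ y j ∧ x i < y j then
        y j * b j l * z l * c l i * x i * a i j else 0 := by
    rw [Finset.sum_comm_cycle]
  have e3 : (∑ l, ∑ i, ∑ j, if x i < z l ∧ y j < z l then z l * c l i * x i * a i j * y j * b j l
      else 0) = ∑ i, ∑ j, ∑ l, if x i < z l ∧ y j < z l then
        z l * c l i * x i * a i j * y j * b j l else 0 := by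
    rw [← Finset.sum_comm_cycle]
  rw [e2] at h2
  rw [e3] at h3
  have e : (∑ i, ∑ j, ∑ l, x i * a i j * y j * b j l * z l * c l i) =
      (∑ i, ∑ j, ∑ l, if y j ≤ x i ∧ z l ≤ x i then x i * a i j * y j * b j l * z l * c l i
        else 0) + (∑ i, ∑ j, ∑ l, if z l ≤ y j ∧ x i < y j then
        y j * b j l * z l * c l i * x i * a i j else 0) +
        ∑ i, ∑ j, ∑ l, if x i < z l ∧ y j < z l then
        z l * c l i * x i * a i j * y j * b j l else 0 := by
    simp only [← Finset.sum_add_distrib]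
    refine Finset.sum_congr rfl fun i _ => Finset.sum_congr rfl fun j _ =>
      Finset.sum_congr rfl fun l _ => ?_
    split_ifs with c1 c2 c3 c4 c5 c6 c7
    · exfalso; linarith [c1.1, c2.2]
    · exfalso; linarith [c1.1, c2.2]
    · exfalso; linarith [c1.2, c4.1]
    · ring
    · exfalso; linarith [c5.1, c6.2]
    · ring
    · ring
    · exfalso
      rcases le_or_gt (y j) (x i) with d1 | d1
      · rcases le_or_gt (z l) (x i) with d2 | d2
        · exact c1 ⟨d1, d2⟩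
        · exact c7 ⟨d2, by linarith⟩
      · rcases le_or_gt (z l) (y j) with d2 | d2
        · exact c5 ⟨d2, d1⟩
        · exact c7 ⟨by linarith, d2⟩
  rw [e]
  refine (abs_add_three _ _ _).trans ?_
  linarith

noncomputable def rho (r : ℝ) (N j : ℕ) : ℝ := r * 2 ^ j / 2 ^ N

lemma rho_pos {r : ℝ} (hr : 0 < r) (N j : ℕ) : 0 < rho r N j := by unfold rho; positivity

lemma g_nonneg {c : ℝ} (hc : 0 ≤ c) (x : ℝ) : 0 ≤ g c x := by unfold g; positivity

lemma scalar_aux {ρ x y : ℝ} (hy : 0 ≤ y) (hxy : y ≤ x) (h1 : x ≤ ρ) (h2 : ρ ≤ 2 * x)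
    (hρ : 0 < ρ) : x * y * y ≤ 10 * (ρ ^ 3 * (g (ρ ^ 2)⁻¹ x * g (ρ ^ 2)⁻¹ y)) := by
  have hx : 0 < x := by linarith
  have a1 : 1 / 5 ≤ g (ρ ^ 2)⁻¹ x := by
    unfold g
    rw [div_le_div_iff₀ (by norm_num) (by positivity)]
    field_simp
    nlinarith
  have a2 : y ^ 2 / (2 * ρ ^ 2) ≤ g (ρ ^ 2)⁻¹ y := by
    unfold g
    rw [div_le_div_iff₀ (by positivity) (by positivity)]
    field_simp
    have : y ^ 2 ≤ ρ ^ 2 := by nlinarith
    nlinarith [sq_nonneg y]
  have a3 : 1 / 5 * (y ^ 2 / (2 * ρ ^ 2)) ≤ g (ρ ^ 2)⁻¹ x * g (ρ ^ 2)⁻¹ y :=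
    mul_le_mul a1 a2 (by positivity) (by linarith)
  have a4 : 10 * (ρ ^ 3 * (1 / 5 * (y ^ 2 / (2 * ρ ^ 2)))) = ρ * y * y := by
    field_simp; ring
  have a5 : x * y * y ≤ ρ * y * y := by gcongr
  have a6 : ρ ^ 3 * (1 / 5 * (y ^ 2 / (2 * ρ ^ 2))) ≤ ρ ^ 3 * (g (ρ ^ 2)⁻¹ x * g (ρ ^ 2)⁻¹ y) := by
    gcongr
  linarith

lemma exists_rho {r M : ℝ} (hr : 0 < r) (hM : 0 < M) :
    ∀ᶠ N in atTop, ∃ j ∈ Finset.range (2 * N), M ≤ rho r N j ∧ rho r N j ≤ 2 * M := by
  obtain ⟨k, hk1, hk2⟩ := exists_mem_Ico_zpow (x := M / r) (y := (2:ℝ)) (by positivity)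
    (by norm_num)
  filter_upwards [eventually_ge_atTop ((k + 1).natAbs + 1)] with N hN
  refine ⟨(N + (k + 1)).toNat, Finset.mem_range.2 (by omega), ?_⟩
  have e : rho r N (N + (k + 1)).toNat = r * 2 ^ (k + 1) := by
    unfold rho
    rw [← zpow_natCast, ← zpow_natCast, Int.toNat_of_nonneg (by omega), zpow_add₀ (by norm_num)]
    field_simp
  rw [e]
  rw [le_div_iff₀ hr] at hk1
  rw [div_lt_iff₀ hr] at hk2
  rw [zpow_add₀ (by norm_num)] at *
  constructor <;> nlinarith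

lemma scalar {r x y : ℝ} (hr : 0 < r) (hx : 0 ≤ x) (hy : 0 ≤ y) :
    ∀ᶠ N in atTop, x * y * min x y ≤ 10 * ∑ j ∈ Finset.range (2 * N),
      rho r N j ^ 3 * (g (rho r N j ^ 2)⁻¹ x * g (rho r N j ^ 2)⁻¹ y) := by
  have nn : ∀ N j, 0 ≤ rho r N j ^ 3 * (g (rho r N j ^ 2)⁻¹ x * g (rho r N j ^ 2)⁻¹ y) := by
    intro N j
    have := rho_pos hr N j
    have := g_nonneg (c := (rho r N j ^ 2)⁻¹) (by positivity) x
    have := g_nonneg (c := (rho r N j ^ 2)⁻¹) (by positivity) y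
    positivity
  rcases le_total y x with h | h
  · rcases hx.eq_or_lt with h0 | h0
    · refine Eventually.of_forall fun N => ?_
      rw [show x * y * min x y = 0 by rw [← h0, zero_mul, zero_mul]]
      exact mul_nonneg (by norm_num) (Finset.sum_nonneg fun j _ => nn N j)
    · filter_upwards [exists_rho hr h0] with N ⟨j, hj, h1, h2⟩
      rw [min_eq_right h]
      refine (scalar_aux hy h h1 h2 (rho_pos hr N j)).trans ?_
      exact mul_le_mul_of_nonneg_left (Finset.single_le_sum (fun j _ => nn N j) hj) (by norm_num)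
  · rcases hy.eq_or_lt with h0 | h0
    · refine Eventually.of_forall fun N => ?_
      rw [show x * y * min x y = 0 by rw [← h0, mul_zero, zero_mul]]
      exact mul_nonneg (by norm_num) (Finset.sum_nonneg fun j _ => nn N j)
    · filter_upwards [exists_rho hr h0] with N ⟨j, hj, h1, h2⟩
      rw [min_eq_left h]
      have := scalar_aux hx h h1 h2 (rho_pos hr N j)
      rw [mul_comm (g _ y), mul_comm y x] at this
      refine this.trans ?_
      exact mul_le_mul_of_nonneg_left (Finset.single_le_sum (fun j _ => nn N j) hj) (by norm_num)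

def S (X Y : Matrix n n ℝ) : Matrix n n ℝ := Xᵀ * X + Y * Yᵀ

omit [DecidableEq n] in
lemma S_psd (X Y : Matrix n n ℝ) : (S X Y).PosSemidef := (psd_tmul X).add (psd_mult Y)

noncomputable def e2 (c : ℝ) (X Y : Matrix n n ℝ) (δ : n → ℝ) : ℝ :=
  en (c • S X Y) (c • S X Y) (diagonal δ)

lemma e2_nonneg {c : ℝ} (hc : 0 ≤ c) (X Y : Matrix n n ℝ) (δ : n → ℝ) : 0 ≤ e2 c X Y δ :=
  en_nonneg ((S_psd X Y).smul hc) ((S_psd X Y).smul hc) (diagonal_transpose δ)

lemma pair_bound {U V U' V' : Matrix n n ℝ} {x y : n → ℝ} (hx : ∀ i, 0 ≤ x i) (hy : ∀ i, 0 ≤ y i)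
    (hU : PI U x) (hV : PI V x) (hU' : PI U' y) (hV' : PI V' y) (δ : n → ℝ) {r : ℝ} (hr : 0 < r) :
    ∀ᶠ N in atTop, E x y (Vᵀ * diagonal δ * U') ≤ 10 * ∑ j ∈ Finset.range (2 * N),
      rho r N j ^ 3 * e2 (rho r N j ^ 2)⁻¹ (U * diagonal x * Vᵀ) (U' * diagonal y * V'ᵀ) δ := by
  have sq1 : ∀ {W : Matrix n n ℝ} {x : n → ℝ}, PI W x →
      diagonal x * (Wᵀ * W) * diagonal x = diagonal (fun i => x i ^ 2) := by
    rintro W x ⟨π, h1, -, h3⟩
    rw [h1, diagonal_mul_diagonal, diagonal_mul_diagonal]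
    congr 1; ext i; rw [mul_assoc, h3]; ring
  have hX : (U * diagonal x * Vᵀ)ᵀ * (U * diagonal x * Vᵀ)
      = V * diagonal (fun i => x i ^ 2) * Vᵀ := by
    rw [← sq1 hU, transpose_mul, transpose_mul, transpose_transpose, diagonal_transpose]
    simp only [Matrix.mul_assoc]
  have hY : (U' * diagonal y * V'ᵀ) * (U' * diagonal y * V'ᵀ)ᵀ
      = U' * diagonal (fun i => y i ^ 2) * U'ᵀ := by
    rw [← sq1 hV', transpose_mul, transpose_mul, transpose_transpose, diagonal_transpose]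
    simp only [Matrix.mul_assoc]
  have key : ∀ c : ℝ, 0 ≤ c → ∑ i, ∑ j, g c (x i) * g c (y j) * (Vᵀ * diagonal δ * U') i j ^ 2 ≤
      e2 c (U * diagonal x * Vᵀ) (U' * diagonal y * V'ᵀ) δ := by
    intro c hc
    refine le_trans (le_of_eq ?_) (en_mono (P := c • ((U * diagonal x * Vᵀ)ᵀ * (U * diagonal x * Vᵀ)))
      (Q := c • ((U' * diagonal y * V'ᵀ) * (U' * diagonal y * V'ᵀ)ᵀ))
      ((psd_tmul _).smul hc) ((psd_mult _).smul hc) ?_ ?_ (diagonal_transpose δ))
    · rw [en, hX, hY, G_diag hV hc, G_diag hU' hc]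
      have : V * diagonal (fun i => g c (x i)) * Vᵀ * diagonal δ *
          (U' * diagonal (fun i => g c (y i)) * U'ᵀ) * diagonal δ =
          V * (diagonal (fun i => g c (x i)) * (Vᵀ * diagonal δ * U') *
            diagonal (fun i => g c (y i)) * (U'ᵀ * diagonal δ)) := by
        simp only [Matrix.mul_assoc]
      rw [this, trace_mul_comm, Matrix.mul_assoc _ _ V]
      have : U'ᵀ * diagonal δ * V = (Vᵀ * diagonal δ * U')ᵀ := by
        rw [transpose_mul, transpose_mul, transpose_transpose, diagonal_transpose,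
          Matrix.mul_assoc]
      rw [this]
      generalize Vᵀ * diagonal δ * U' = a
      simp only [trace, diag, Matrix.mul_apply (M := diagonal (fun i => g c (x i)) * a *
        diagonal (fun i => g c (y i))), mul_diagonal, diagonal_mul, transpose_apply]
      refine Finset.sum_congr rfl fun i _ => Finset.sum_congr rfl fun j _ => by ring
    · rw [← smul_sub, S, add_sub_cancel_left]; exact (psd_mult _).smul hc
    · rw [← smul_sub, S, add_sub_cancel_right]; exact (psd_tmul _).smul hc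
  have all : ∀ᶠ N in atTop, ∀ i j, x i * y j * min (x i) (y j) ≤
      10 * ∑ l ∈ Finset.range (2 * N),
      rho r N l ^ 3 * (g (rho r N l ^ 2)⁻¹ (x i) * g (rho r N l ^ 2)⁻¹ (y j)) :=
    eventually_all.2 fun i => eventually_all.2 fun j => scalar hr (hx i) (hy j)
  filter_upwards [all] with N hN
  generalize Vᵀ * diagonal δ * U' = a at key ⊢
  calc E x y a ≤ ∑ i, ∑ j, (10 * ∑ l ∈ Finset.range (2 * N),
      rho r N l ^ 3 * (g (rho r N l ^ 2)⁻¹ (x i) * g (rho r N l ^ 2)⁻¹ (y j))) * a i j ^ 2 := by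
        unfold E
        exact Finset.sum_le_sum fun i _ => Finset.sum_le_sum fun j _ =>
          mul_le_mul_of_nonneg_right (hN i j) (sq_nonneg _)
    _ = 10 * ∑ l ∈ Finset.range (2 * N), rho r N l ^ 3 *
        ∑ i, ∑ j, g (rho r N l ^ 2)⁻¹ (x i) * g (rho r N l ^ 2)⁻¹ (y j) * a i j ^ 2 := by
        simp only [Finset.mul_sum, Finset.sum_mul]
        rw [Finset.sum_comm_cycle]
        refine Finset.sum_congr rfl fun _ _ => Finset.sum_congr rfl fun _ _ =>
          Finset.sum_congr rfl fun _ _ => by ring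
    _ ≤ _ := by
        gcongr with l _
        · exact (pow_pos (rho_pos hr N l) 3).le
        · exact key _ (by positivity)

lemma trilinear (X Y Z : Matrix n n ℝ) {δ0 δ1 δ2 : n → ℝ} (h0 : ∀ i, |δ0 i| ≤ 1)
    (h1 : ∀ i, |δ1 i| ≤ 1) (h2 : ∀ i, |δ2 i| ≤ 1) {r : ℝ} (hr : 0 < r) :
    ∀ᶠ N in atTop, |(X * diagonal δ1 * Y * diagonal δ2 * Z * diagonal δ0).trace| ≤
      10 * ∑ j ∈ Finset.range (2 * N), rho r N j ^ 3 * (e2 (rho r N j ^ 2)⁻¹ X Y δ1 +
        e2 (rho r N j ^ 2)⁻¹ Y Z δ2 + e2 (rho r N j ^ 2)⁻¹ Z X δ0) := by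
  obtain ⟨U, V, x, hx, hU, hV, rfl⟩ := svd X
  obtain ⟨U', V', y, hy, hU', hV', rfl⟩ := svd Y
  obtain ⟨U'', V'', z, hz, hU'', hV'', rfl⟩ := svd Z
  filter_upwards [pair_bound hx hy hU hV hU' hV' δ1 hr, pair_bound hy hz hU' hV' hU'' hV'' δ2 hr,
    pair_bound hz hx hU'' hV'' hU hV δ0 hr] with N a1 a2 a3
  have t := tri hx hy hz _ _ _ (contr_of hV hU' h1) (contr_of hV' hU'' h2) (contr_of hV'' hU h0)
  have e : (U * diagonal x * Vᵀ * diagonal δ1 * (U' * diagonal y * V'ᵀ) * diagonal δ2 *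
      (U'' * diagonal z * V''ᵀ) * diagonal δ0).trace =
      ∑ i, ∑ j, ∑ l, x i * (Vᵀ * diagonal δ1 * U') i j * y j * (V'ᵀ * diagonal δ2 * U'') j l *
        z l * (V''ᵀ * diagonal δ0 * U) l i := by
    have : U * diagonal x * Vᵀ * diagonal δ1 * (U' * diagonal y * V'ᵀ) * diagonal δ2 *
      (U'' * diagonal z * V''ᵀ) * diagonal δ0 = U * ((diagonal x * (Vᵀ * diagonal δ1 * U') *
        diagonal y) * ((V'ᵀ * diagonal δ2 * U'') * diagonal z * (V''ᵀ * diagonal δ0))) := by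
      simp only [Matrix.mul_assoc]
    rw [this, trace_mul_comm, Matrix.mul_assoc _ _ U, Matrix.mul_assoc _ _ U]
    generalize Vᵀ * diagonal δ1 * U' = a
    generalize V'ᵀ * diagonal δ2 * U'' = b
    generalize V''ᵀ * diagonal δ0 * U = c
    simp only [trace, diag, Matrix.mul_apply (M := diagonal x * a * diagonal y),
      Matrix.mul_apply (M := b * diagonal z), mul_diagonal, diagonal_mul, Finset.mul_sum]
    refine Finset.sum_congr rfl fun _ _ => Finset.sum_congr rfl fun _ _ =>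
          Finset.sum_congr rfl fun _ _ => by ring
  rw [e]
  simp only [mul_add, Finset.sum_add_distrib]
  linarith

lemma geom {r u : ℝ} (hr : 0 < r) (hu : 0 ≤ u) (N M : ℕ) :
    ∑ j ∈ Finset.range M, rho r N j ^ 3 *
      (((rho r N j ^ 2)⁻¹ * u) ^ 2 / (1 + (rho r N j ^ 2)⁻¹ * u)) ≤ 4 * Real.sqrt u ^ 3 := by
  rcases hu.eq_or_lt with h0 | h0
  · simp [← h0]
  set w := Real.sqrt u with hw
  have hw0 : 0 < w := Real.sqrt_pos.2 h0
  have hu2 : u = w ^ 2 := (Real.sq_sqrt hu).symm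
  have step : ∀ j, rho r N j ^ 3 * (((rho r N j ^ 2)⁻¹ * u) ^ 2 / (1 + (rho r N j ^ 2)⁻¹ * u)) ≤
      4 * w ^ 3 * (rho r N (j + 1) / (w + rho r N (j + 1)) - rho r N j / (w + rho r N j)) := by
    intro j
    have e : rho r N (j + 1) = 2 * rho r N j := by unfold rho; ring
    rw [e, hu2]
    have := rho_pos hr N j
    generalize rho r N j = ρ at this
    have e1 : ρ ^ 3 * (((ρ ^ 2)⁻¹ * w ^ 2) ^ 2 / (1 + (ρ ^ 2)⁻¹ * w ^ 2))
        = w ^ 4 * ρ / (ρ ^ 2 + w ^ 2) := by field_simp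
    have e2 : 4 * w ^ 3 * (2 * ρ / (w + 2 * ρ) - ρ / (w + ρ))
        = w ^ 4 * ρ / ((w + ρ) * (w + 2 * ρ) / 4) := by field_simp; ring
    rw [e1, e2]
    apply div_le_div_of_nonneg_left (by positivity) (by positivity)
    nlinarith [sq_nonneg (w - ρ)]
  refine (Finset.sum_le_sum fun j _ => step j).trans ?_
  rw [← Finset.mul_sum, Finset.sum_range_sub (fun j => rho r N j / (w + rho r N j))]
  have a1 : rho r N M / (w + rho r N M) ≤ 1 := by
    have := rho_pos hr N M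
    rw [div_le_one (by positivity)]; linarith
  have a2 : 0 ≤ rho r N 0 / (w + rho r N 0) := by
    have := rho_pos hr N 0
    positivity
  have : 0 < w ^ 3 := by positivity
  nlinarith

end Vale.Agent.P075
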